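import Vale.Agent.P032.H667.Drift

/-!
# P032: corollaries of the drift theorem (helper667)
-/

namespace Vale.Agent.P032.H667

variable {V : Type*} {G : V → V → Prop} {n : ℕ} {w : ℕ → V}

/-- two different letters of the walk alternate three times in one turn: the indices -/
theorem alternate_idx {l : ℕ} {c : ℕ → V} (hl : l % 2 = 1)
    (hper : ∀ i, c (i + l) = c i) {i i' : ℕ} (hne : c i ≠ c i') :
    ∃ t : ℕ → ℕ, StrictMono t ∧ (∀ k, t (k + 6) = t k + 3 * l) ∧
      (∀ k, c (2 * t (2 * k)) = c i) ∧ ∀ k, c (2 * t (2 * k + 1)) = c i' := by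
  have hl0 : 0 < l := by omega
  have hperm : ∀ i k, c (i + l * k) = c i := by
    intro i k
    induction k with
    | zero => rfl
    | succ k ih => rw [show i + l * (k + 1) = i + l * k + l by ring, hper, ih]
  have hcm : ∀ x y, x % l = y % l → c x = c y := by
    intro x y hxy
    have hx := Nat.div_add_mod x l
    have hy := Nat.div_add_mod y l
    rw [← hx, ← hy, Nat.add_comm, hperm, Nat.add_comm (l * (y / l)), hperm, hxy]
  obtain ⟨m, hm⟩ : ∃ m, l + 1 = 2 * m := ⟨(l + 1) / 2, by omega⟩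
  -- places of a letter
  have hplace : ∀ j k, c (2 * ((j * m) % l + k * l)) = c j := by
    intro j k
    refine hcm _ _ ?_
    have e1 : 2 * ((j * m) % l + k * l) = 2 * ((j * m) % l) + 2 * k * l := by ring
    rw [e1, Nat.add_mul_mod_self_right, Nat.mul_mod, Nat.mod_mod, ← Nat.mul_mod]
    have e2 : 2 * (j * m) = j + j * l := by
      have : 2 * (j * m) = j * (2 * m) := by ring
      rw [this, ← hm]
      ring
    rw [e2, Nat.add_mul_mod_self_right]
  set u := (i * m) % l with hu
  set v := (i' * m) % l with hv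
  have hul : u < l := Nat.mod_lt _ hl0
  have hvl : v < l := Nat.mod_lt _ hl0
  have huv : u ≠ v := by
    intro e
    apply hne
    rw [← hplace i 0, ← hplace i' 0, ← hu, ← hv, e]
  obtain ⟨v', k0, hv', h1, h2⟩ : ∃ v' k0, v' = v + k0 * l ∧ u < v' ∧ v' < u + l := by
    rcases Nat.lt_or_gt_of_ne huv with h | h
    · exact ⟨v, 0, by ring, h, by omega⟩
    · exact ⟨v + l, 1, by ring, by omega, by omega⟩
  refine ⟨fun k => if k % 2 = 0 then u + k / 2 * l else v' + k / 2 * l, ?_, ?_, ?_, ?_⟩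
  · refine strictMono_nat_of_lt_succ fun k => ?_
    rcases Nat.even_or_odd' k with ⟨r, rfl | rfl⟩
    · have a1 : (2 * r) % 2 = 0 := by omega
      have a2 : ¬ (2 * r + 1) % 2 = 0 := by omega
      have a3 : (2 * r) / 2 = r := by omega
      have a4 : (2 * r + 1) / 2 = r := by omega
      simp only [a1, a2, a3, a4, if_true, if_false]
      omega
    · have a1 : (2 * r + 1 + 1) % 2 = 0 := by omega
      have a2 : ¬ (2 * r + 1) % 2 = 0 := by omega
      have a3 : (2 * r + 1 + 1) / 2 = r + 1 := by omega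
      have a4 : (2 * r + 1) / 2 = r := by omega
      simp only [a1, a2, a3, a4, if_true, if_false]
      have : (r + 1) * l = r * l + l := by ring
      omega
  · intro k
    have a1 : (k + 6) % 2 = k % 2 := by omega
    have a2 : (k + 6) / 2 = k / 2 + 3 := by omega
    simp only [a1, a2]
    split_ifs
    · ring
    · ring
  · intro k
    have a1 : (2 * k) % 2 = 0 := by omega
    have a3 : (2 * k) / 2 = k := by omega
    simp only [a1, a3, if_true]
    rw [hplace]
  · intro k
    have a2 : ¬ (2 * k + 1) % 2 = 0 := by omega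
    have a4 : (2 * k + 1) / 2 = k := by omega
    simp only [a2, a4, if_false]
    rw [hv']
    have : 2 * (v + k0 * l + k * l) = 2 * (v + (k0 + k) * l) := by ring
    rw [this, hplace]

/-- two different letters of the walk alternate three times in one turn -/
theorem alternate {l : ℕ} {c : ℕ → V} {S : ℕ → ℕ} (hl : l % 2 = 1)
    (hper : ∀ i, c (i + l) = c i) (hS : StrictMono S) (hSp : ∀ q, S (q + 3 * l) = S q + 6 * n)
    (hw : ∀ q, w (S q) = c (2 * q)) {i i' : ℕ} (hne : c i ≠ c i') :
    ∃ t : ℕ → ℕ, StrictMono t ∧ (∀ k, t (k + 6) = t k + 6 * n) ∧ (∀ k, w (t (2 * k)) = c i) ∧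
      ∀ k, w (t (2 * k + 1)) = c i' := by
  obtain ⟨t, h1, h2, h3, h4⟩ := alternate_idx hl hper hne
  refine ⟨fun k => S (t k), hS.comp h1, fun k => ?_, fun k => ?_, fun k => ?_⟩
  · show S (t (k + 6)) = S (t k) + 6 * n
    rw [h2, hSp]
  · show w (S (t (2 * k))) = c i
    rw [hw, h3]
  · show w (S (t (2 * k + 1))) = c i'
    rw [hw, h4]

/-- a closed walk of odd length uses an edge of `R` if the other edges are 2-coloured -/
theorem exists_edge {l : ℕ} {c : ℕ → V} (hl : l % 2 = 1) (hper : ∀ i, c (i + l) = c i)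
    (hadj : ∀ i, G (c i) (c (i + 1))) {R : V → V → Prop} {κ : V → Prop}
    (hκ : ∀ x y, G x y → ¬ R x y → (κ x ↔ ¬ κ y)) : ∃ i, R (c i) (c (i + 1)) := by
  by_contra hcon
  push Not at hcon
  have h1 : ∀ i, (κ (c i) ↔ ¬ κ (c (i + 1))) := fun i => hκ _ _ (hadj i) (hcon i)
  have h2 : ∀ r, (κ (c (2 * r)) ↔ κ (c 0)) := by
    intro r
    induction r with
    | zero => exact Iff.rfl
    | succ r ih =>
      have e1 := h1 (2 * r)
      have e2 := h1 (2 * r + 1)
      rw [show 2 * (r + 1) = 2 * r + 1 + 1 by ring]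
      tauto
  obtain ⟨m, hm⟩ : ∃ m, l = 2 * m + 1 := ⟨l / 2, by omega⟩
  have h3 := h1 (2 * m)
  rw [← hm] at h3
  have h4 := hper 0
  rw [Nat.zero_add] at h4
  rw [h4] at h3
  have h5 := h2 m
  tauto

/-- **Drift theorem for an edge set**: if the edges outside `R` are 2-coloured then the ends of an
edge of `R` alternate three times in one turn. -/
theorem Folded.alternate_edge (h : Folded G n w) (sym : ∀ x y, G x y → G y x)
    (irr : ∀ x, ¬ G x x) {R : V → V → Prop} {κ : V → Prop}
    (hκ : ∀ x y, G x y → ¬ R x y → (κ x ↔ ¬ κ y)) :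
    ∃ p q, G p q ∧ R p q ∧ ∃ t : ℕ → ℕ, StrictMono t ∧ (∀ k, t (k + 6) = t k + 6 * n) ∧
      (∀ k, w (t (2 * k)) = p) ∧ ∀ k, w (t (2 * k + 1)) = q := by
  obtain ⟨l, c, S, h1, h3, hper, hadj, hred, hS, hSp, hw⟩ := h.drift sym irr
  obtain ⟨i, hi⟩ := exists_edge h1 hper hadj hκ
  refine ⟨c i, c (i + 1), hadj i, hi, alternate h1 hper hS hSp hw fun e => ?_⟩
  have := hadj i
  rw [e] at this
  exact irr _ this

end Vale.Agent.P032.H667
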