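import Vale.Agent.P032.H987.Turn

/-!
# P032: a sweep as a finite chain of generic times (helper667)

In the wild setting (closed sets of directions, possibly infinitely many events) one turn is a
FINITE chain of generic times, consecutive ones related by the event relation.
-/

open Set Filter Topology Relation

namespace Vale.Agent.P032.H667

open H987

variable {K Λ : Type*} {X : K → Λ → Set ℝ} {R : (K → Λ) → (K → Λ) → Prop}

/-- one step between generic times -/
def Stp (X : K → Λ → Set ℝ) (R : (K → Λ) → (K → Λ) → Prop) (v v' : ℝ) : Prop :=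
  v < v' ∧ v ∈ Gen X ∧ v' ∈ Gen X ∧
    ∀ h h' : K → Λ, (∀ k, v ∈ X k (h k)) → (∀ k, v' ∈ X k (h' k)) → R h h'

theorem stp_of [Finite K] [Finite Λ] {Leg : (K → Λ) → Prop} {a b : ℝ} (w : MW X Leg a b)
    {v v' u : ℝ} (hlt : v < v') (hv : v ∈ Gen X) (hv' : v' ∈ Gen X)
    (h1 : let' X w.cover v ∈ LC X u) (h2 : let' X w.cover v' ∈ RC X u)
    (step : ∀ h ∈ LC X u, ∀ h' ∈ RC X u, R h h') : Stp X R v v' := by
  refine ⟨hlt, hv, hv', fun h h' hh hh' => ?_⟩
  rw [← w.gen_eq hv hh, ← w.gen_eq hv' hh']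
  exact step _ h1 _ h2

theorem reach [Finite K] [Finite Λ] {Leg : (K → Λ) → Prop} {a b : ℝ} (w : MW X Leg a b)
    (step : ∀ u : ℝ, ∀ h ∈ LC X u, ∀ h' ∈ RC X u, R h h') {v₀ v₁ : ℝ} (h0 : v₀ ∈ Gen X)
    (hv₁ : v₁ ∈ Gen X) (hlt : v₀ < v₁) : TransGen (Stp X R) v₀ v₁ := by
  -- generic times are limits of themselves
  have gL : ∀ u ∈ Gen X, let' X w.cover u ∈ LC X u := by
    intro u hu
    obtain ⟨v, hv, hvG⟩ : ∃ v, (v ∈ Gen X → let' X w.cover v ∈ LC X u) ∧
        (v ∈ Gen X ∧ (v ∈ Gen X → let' X w.cover v = let' X w.cover u)) := by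
      have hf : ∃ᶠ v in 𝓝[<] u, v ∈ Gen X := by
        rw [frequently_iff]
        intro V hV
        obtain ⟨c, hc, hsub⟩ := mem_nhdsLT_iff_exists_Ioo_subset.1 hV
        obtain ⟨v, hv, hv2⟩ := w.dense.exists_mem_open isOpen_Ioo (nonempty_Ioo.2 hc)
        exact ⟨v, hsub hv2, hv⟩
      obtain ⟨v, ⟨h1, h2⟩, h3⟩ := ((hf.and_eventually (w.ev_LC u)).and_eventually
        (mem_nhdsWithin_of_mem_nhds (w.gen_const hu))).exists
      exact ⟨v, h2, h1, h3⟩
    rw [← hvG.2 hvG.1]
    exact hv hvG.1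
  have gR : ∀ u ∈ Gen X, let' X w.cover u ∈ RC X u := by
    intro u hu
    obtain ⟨v, hv, hvG⟩ : ∃ v, (v ∈ Gen X → let' X w.cover v ∈ RC X u) ∧
        (v ∈ Gen X ∧ (v ∈ Gen X → let' X w.cover v = let' X w.cover u)) := by
      have hf : ∃ᶠ v in 𝓝[>] u, v ∈ Gen X := by
        rw [frequently_iff]
        intro V hV
        obtain ⟨c, hc, hsub⟩ := mem_nhdsGT_iff_exists_Ioo_subset.1 hV
        obtain ⟨v, hv, hv2⟩ := w.dense.exists_mem_open isOpen_Ioo (nonempty_Ioo.2 hc)
        exact ⟨v, hsub hv2, hv⟩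
      obtain ⟨v, ⟨h1, h2⟩, h3⟩ := ((hf.and_eventually (w.ev_RC u)).and_eventually
        (mem_nhdsWithin_of_mem_nhds (w.gen_const hu))).exists
      exact ⟨v, h2, h1, h3⟩
    rw [← hvG.2 hvG.1]
    exact hv hvG.1
  set A : Set ℝ := {x | ∀ v, v₀ < v → v < x → v ∈ Gen X → TransGen (Stp X R) v₀ v} with hA
  have hclosed : IsClosed (A ∩ Icc v₀ (v₁ + 1)) := by
    refine IsClosed.inter ?_ isClosed_Icc
    have : A = ⋂ v ∈ {v | v₀ < v ∧ v ∈ Gen X ∧ ¬ TransGen (Stp X R) v₀ v}, Iic v := by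
      ext x
      simp only [hA, mem_ofPred_eq, mem_iInter, mem_Iic]
      constructor
      · rintro h v ⟨h1, h2, h3⟩
        by_contra hcon
        push Not at hcon
        exact h3 (h v h1 hcon h2)
      · intro h v h1 h2 h3
        by_contra hcon
        have := h v ⟨h1, h3, hcon⟩
        linarith
    rw [this]
    exact isClosed_biInter fun _ _ => isClosed_Iic
  have ha : v₀ ∈ A := fun v h1 h2 => absurd h2 (by linarith)
  have key : Icc v₀ (v₁ + 1) ⊆ A := by
    refine hclosed.Icc_subset_of_forall_exists_gt ha ?_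
    rintro x ⟨hxA, hxa, hxb⟩ y hxy
    have hxy : x < y := hxy
    obtain ⟨d, hd, hsub'⟩ := mem_nhdsGT_iff_exists_Ioo_subset.1 (w.ev_RC x)
    have hd : x < d := hd
    have hsub2 : ∀ v', x < v' → v' < d → v' ∈ Gen X → let' X w.cover v' ∈ RC X x :=
      fun v' a b c => hsub' ⟨a, b⟩ c
    rcases eq_or_lt_of_le hxa with rfl | hax
    · refine ⟨min y d, ?_, lt_min hxy hd, min_le_left _ _⟩
      intro v' g1 g2 g3
      exact TransGen.single (stp_of w g1 h0 g3 (gL _ h0)
        (hsub2 v' g1 (lt_of_lt_of_le g2 (min_le_right _ _)) g3) (step _))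
    · have hev : ∀ᶠ v in 𝓝[<] x, (v ∈ Gen X → let' X w.cover v ∈ LC X x) := w.ev_LC x
      obtain ⟨c, hc, hsub⟩ := mem_nhdsLT_iff_exists_Ioo_subset.1 hev
      have hc : c < x := hc
      obtain ⟨v, hvG, hv⟩ := w.dense.exists_mem_open isOpen_Ioo (nonempty_Ioo.2 (max_lt hax hc))
      have hva : v₀ < v := lt_of_le_of_lt (le_max_left _ _) hv.1
      have hvc : c < v := lt_of_le_of_lt (le_max_right _ _) hv.1
      have hT := hxA v hva hv.2 hvG
      have hvL : let' X w.cover v ∈ LC X x := hsub ⟨hvc, hv.2⟩ hvG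
      refine ⟨min y d, ?_, lt_min hxy hd, min_le_left _ _⟩
      intro v' g1 g2 g3
      rcases lt_trichotomy v' x with h | h | h
      · exact hxA v' g1 h g3
      · have g4 : x ∈ Gen X := by rw [← h]; exact g3
        rw [h]
        exact hT.tail (stp_of w hv.2 hvG g4 hvL (gR x g4) (step x))
      · exact hT.tail (stp_of w (hv.2.trans h) hvG g3 hvL
          (hsub2 v' h (lt_of_lt_of_le g2 (min_le_right _ _)) g3) (step x))
  exact key ⟨by linarith, le_rfl⟩ v₁ hlt (by linarith) hv₁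

/-- a finite chain as a function -/
theorem exists_fun {α : Type*} {r : α → α → Prop} {x y : α} (h : TransGen r x y) :
    ∃ (n : ℕ) (t : ℕ → α), 0 < n ∧ t 0 = x ∧ t n = y ∧ ∀ i < n, r (t i) (t (i + 1)) := by
  induction h with
  | @single y h =>
    refine ⟨1, fun i => if i = 0 then x else y, one_pos, if_pos rfl, if_neg one_ne_zero, ?_⟩
    intro i hi
    have : i = 0 := by omega
    subst this
    exact h
  | @tail y z _ h ih =>
    obtain ⟨n, t, hn, h0, h1, h2⟩ := ih
    refine ⟨n + 1, fun i => if i = n + 1 then z else t i, by omega, ?_, if_pos rfl, ?_⟩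
    · show (if 0 = n + 1 then z else t 0) = x
      rw [if_neg (by omega), h0]
    · intro i hi
      show r (if i = n + 1 then z else t i) (if i + 1 = n + 1 then z else t (i + 1))
      rw [if_neg (by omega)]
      rcases Nat.lt_or_ge i n with h3 | h3
      · rw [if_neg (by omega)]
        exact h2 i h3
      · have : i = n := by omega
        subst this
        rw [if_pos rfl, h1]
        exact h

variable {κ : Type*} {Y : κ → Λ → Set ℝ}

/-- **One turn is a finite chain of generic times.** -/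
theorem exists_chain [Finite κ] [Finite Λ] (w : MC Y)
    {R : (κ × Fin 6 → Λ) → (κ × Fin 6 → Λ) → Prop}
    (step : ∀ u : ℝ, ∀ h ∈ LC (slots Y) u, ∀ h' ∈ RC (slots Y) u, R h h')
    (hR : ∀ h h', R h h' → R (sh h) (sh h')) :
    ∃ (n : ℕ) (t : ℕ → ℝ), 0 < n ∧ StrictMono t ∧ (∀ i, t (i + n) = t i + 1) ∧
      ∀ i, Stp (slots Y) R (t i) (t (i + 1)) := by
  have w' : MW (slots Y) (fun _ => True) 0 1 := w.mw fun _ _ _ _ _ => trivial
  obtain ⟨v, hv, -⟩ := w'.dense.exists_mem_open isOpen_univ univ_nonempty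
  obtain ⟨n, t, hn, h0, h1, h2⟩ := exists_fun (reach w' step hv ((w.gen_shift v).2 hv) (by linarith))
  have hshift : ∀ a b, Stp (slots Y) R a b → Stp (slots Y) R (a + 1) (b + 1) := by
    rintro a b ⟨k1, k2, k3, k4⟩
    refine ⟨by linarith, (w.gen_shift a).2 k2, (w.gen_shift b).2 k3, fun h h' hh hh' => ?_⟩
    obtain ⟨g, rfl⟩ := sh_surj h
    obtain ⟨g', rfl⟩ := sh_surj h'
    exact hR _ _ (k4 g g' ((w.sel_shift a g).1 hh) ((w.sel_shift b g').1 hh'))
  have hshift' : ∀ (q : ℕ) a b, Stp (slots Y) R a b → Stp (slots Y) R (a + q) (b + q) := by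
    intro q
    induction q with
    | zero => intro a b h; simpa using h
    | succ q ih =>
      intro a b h
      have := hshift _ _ (ih a b h)
      push_cast
      rw [← add_assoc, ← add_assoc]
      exact this
  let T : ℕ → ℝ := fun i => t (i % n) + (i / n : ℕ)
  have hstep : ∀ i, Stp (slots Y) R (T i) (T (i + 1)) := by
    intro i
    have hi := Nat.mod_lt i hn
    rcases Nat.lt_or_ge (i % n + 1) n with h4 | h4
    · have e1 : (i + 1) % n = i % n + 1 := by
        rw [Nat.add_mod, Nat.mod_eq_of_lt (show 1 < n by omega), Nat.mod_eq_of_lt h4]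
      have e2 : (i + 1) / n = i / n := by
        have a1 := Nat.div_add_mod i n
        have a2 := Nat.div_add_mod (i + 1) n
        rw [e1] at a2
        have a3 : n * ((i + 1) / n) = n * (i / n) := by omega
        exact Nat.eq_of_mul_eq_mul_left hn a3
      show Stp (slots Y) R (t (i % n) + (i / n : ℕ)) (t ((i + 1) % n) + ((i + 1) / n : ℕ))
      rw [e1, e2]
      exact hshift' _ _ _ (h2 _ hi)
    · have e3 : i + 1 = n * (i / n + 1) := by
        have a1 := Nat.div_add_mod i n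
        rw [Nat.mul_add, Nat.mul_one]
        omega
      have e1 : (i + 1) % n = 0 := by rw [e3]; exact Nat.mul_mod_right _ _
      have e2 : (i + 1) / n = i / n + 1 := by rw [e3]; exact Nat.mul_div_cancel_left _ hn
      have e4 : i % n + 1 = n := by omega
      show Stp (slots Y) R (t (i % n) + (i / n : ℕ)) (t ((i + 1) % n) + ((i + 1) / n : ℕ))
      rw [e1, e2, h0]
      have h5 := hshift' (i / n) _ _ (h2 _ hi)
      rw [e4, h1] at h5
      push_cast
      rwa [show v + ((i / n : ℕ) + 1 : ℝ) = v + 1 + (i / n : ℕ) by ring]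
  refine ⟨n, T, hn, strictMono_nat_of_lt_succ fun i => (hstep i).1, fun i => ?_, hstep⟩
  show t ((i + n) % n) + ((i + n) / n : ℕ) = t (i % n) + (i / n : ℕ) + 1
  rw [Nat.add_mod_right, Nat.add_div_right _ hn]
  push_cast
  ring

end Vale.Agent.P032.H667
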