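import Vale.Agent.P032.H667.Alt
import Vale.Agent.P032.H667.Chain

/-!
# P032: the drift theorem on a circle (helper667)

Columns of six letters; wild form over the closed sets of directions of `H987.MC`.
-/

open Set Filter Topology

namespace Vale.Agent.P032.H667

open H987

variable {V : Type*} {G : V → V → Prop}

/-- every changing slot has two equal neighbours which do not change -/
def FoldRel (f g : Fin 6 → V) : Prop :=
  ∀ j, g (j + 1) ≠ f (j + 1) → f (j + 2) = f j ∧ g j = f j ∧ g (j + 2) = f (j + 2)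

/-- natural numbers as slots -/
def fi (k : ℕ) : Fin 6 := ⟨k % 6, Nat.mod_lt _ (by norm_num)⟩

theorem fi_add (a b : ℕ) : fi (a + b) = fi a + fi b := by
  apply Fin.ext
  rw [Fin.val_add]
  show (a + b) % 6 = (a % 6 + b % 6) % 6
  omega

theorem fi_zero : fi 0 = 0 := rfl
theorem fi_one : fi 1 = 1 := rfl
theorem fi_two : fi 2 = 2 := rfl
theorem fi_six : fi 6 = 0 := rfl

theorem fi_val (j : Fin 6) : fi j.val = j := Fin.ext (Nat.mod_eq_of_lt j.isLt)

/-- the letters met on the circle, from the columns `c 0, .., c N` of one sixth of a turn -/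
def word (N : ℕ) (c : ℕ → Fin 6 → V) (s : ℕ) : V := c (s % N) (fi (s / N))

theorem word_add {N : ℕ} (hN : 0 < N) (c : ℕ → Fin 6 → V) (s k : ℕ) :
    word N c (s + k * N) = c (s % N) (fi (s / N) + fi k) := by
  rw [word, Nat.add_mul_mod_self_right, Nat.add_mul_div_right _ _ hN, fi_add]

/-- division with remainder of the successor -/
theorem succ_cases {N : ℕ} (hN : 0 < N) (s : ℕ) :
    (s % N + 1 < N ∧ (s + 1) % N = s % N + 1 ∧ (s + 1) / N = s / N) ∨
      (s % N + 1 = N ∧ (s + 1) % N = 0 ∧ (s + 1) / N = s / N + 1) := by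
  rcases Nat.lt_or_ge (s % N + 1) N with h4 | h4
  · have e1 : (s + 1) % N = s % N + 1 := by
      rw [Nat.add_mod, Nat.mod_eq_of_lt (show 1 < N by omega), Nat.mod_eq_of_lt h4]
    have e2 : (s + 1) / N = s / N := by
      have a1 := Nat.div_add_mod s N
      have a2 := Nat.div_add_mod (s + 1) N
      rw [e1] at a2
      have a3 : N * ((s + 1) / N) = N * (s / N) := by omega
      exact Nat.eq_of_mul_eq_mul_left hN a3
    exact Or.inl ⟨h4, e1, e2⟩
  · have hs := Nat.mod_lt s hN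
    have e4 : s % N + 1 = N := by omega
    have e3 : s + 1 = N * (s / N + 1) := by
      have a1 := Nat.div_add_mod s N
      rw [Nat.mul_add, Nat.mul_one]
      omega
    have e1 : (s + 1) % N = 0 := by rw [e3]; exact Nat.mul_mod_right _ _
    have e2 : (s + 1) / N = s / N + 1 := by rw [e3]; exact Nat.mul_div_cancel_left _ hN
    exact Or.inr ⟨e4, e1, e2⟩

theorem word_succ {N : ℕ} (hN : 0 < N) {c : ℕ → Fin 6 → V} (hturn : ∀ j, c N j = c 0 (j + 1))
    (s k : ℕ) : word N c (s + k * N + 1) = c (s % N + 1) (fi (s / N) + fi k) := by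
  rw [show s + k * N + 1 = s + 1 + k * N by ring, word_add hN]
  rcases succ_cases hN s with ⟨-, e1, e2⟩ | ⟨e4, e1, e2⟩
  · rw [e1, e2]
  · rw [e1, e2, e4, hturn, fi_add, fi_one, add_right_comm]

theorem Folded.of_columns {N : ℕ} (hN : 0 < N) {c : ℕ → Fin 6 → V}
    (hadj : ∀ i < N, ∀ j, G (c i j) (c i (j + 1))) (hfold : ∀ i < N, FoldRel (c i) (c (i + 1)))
    (hturn : ∀ j, c N j = c 0 (j + 1)) : Folded G N (word N c) := by
  have e0 : ∀ s, word N c s = c (s % N) (fi (s / N)) := fun s => rfl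
  have e1 : ∀ s, word N c (s + N) = c (s % N) (fi (s / N) + 1) := fun s => by
    have := word_add hN c s 1
    rwa [one_mul, fi_one] at this
  have e2 : ∀ s, word N c (s + 2 * N) = c (s % N) (fi (s / N) + 2) := fun s => by
    have := word_add hN c s 2
    rwa [fi_two] at this
  have f0 : ∀ s, word N c (s + 1) = c (s % N + 1) (fi (s / N)) := fun s => by
    have := word_succ hN hturn s 0
    rwa [zero_mul, fi_zero, add_zero, add_zero] at this
  have f1 : ∀ s, word N c (s + N + 1) = c (s % N + 1) (fi (s / N) + 1) := fun s => by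
    have := word_succ hN hturn s 1
    rwa [one_mul, fi_one] at this
  have f2 : ∀ s, word N c (s + 2 * N + 1) = c (s % N + 1) (fi (s / N) + 2) := fun s => by
    have := word_succ hN hturn s 2
    rwa [fi_two] at this
  refine ⟨hN, fun s => ?_, fun s => ?_, fun s hs => ?_⟩
  · rw [word_add hN, e0, fi_six, add_zero]
  · rw [e1, e0]
    exact hadj _ (Nat.mod_lt _ hN) _
  · rw [f1, e1] at hs
    rw [e2, f0, f2, e0]
    exact hfold _ (Nat.mod_lt _ hN) _ hs

open Classical in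
/-- the column in which the slots in `A` have changed -/
noncomputable def mix (A : Set (Fin 6)) (f g : Fin 6 → V) : Fin 6 → V :=
  fun j => if j ∈ A then g j else f j

/-- a product of folds in which every slot changes at most once -/
def Ser (G : V → V → Prop) (f g : Fin 6 → V) : Prop :=
  ∃ A : ℕ → Set (Fin 6), A 0 = ∅ ∧ Monotone A ∧ A 6 = univ ∧ ∀ r < 6,
    FoldRel (mix (A r) f g) (mix (A (r + 1)) f g) ∧
      ∀ j, G (mix (A r) f g j) (mix (A r) f g (j + 1))

theorem mix_empty (f g : Fin 6 → V) : mix ∅ f g = f := by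
  funext j
  simp [mix]

theorem mix_univ (f g : Fin 6 → V) : mix univ f g = g := by
  funext j
  simp [mix]

theorem FoldRel.refl (f : Fin 6 → V) : FoldRel f f := fun _ h => absurd rfl h

/-- simultaneous folds -/
theorem Ser.of_fold {f g : Fin 6 → V} (h : FoldRel f g) (hf : ∀ j, G (f j) (f (j + 1)))
    (hg : ∀ j, G (g j) (g (j + 1))) : Ser G f g := by
  refine ⟨fun r => if r = 0 then ∅ else univ, if_pos rfl, ?_, if_neg (by norm_num), ?_⟩
  · intro a b hab
    show (if a = 0 then (∅ : Set (Fin 6)) else univ) ⊆ (if b = 0 then ∅ else univ)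
    by_cases ha : a = 0
    · rw [if_pos ha]; exact empty_subset _
    · rw [if_neg ha, if_neg (by omega)]
  · intro r hr
    rcases Nat.eq_zero_or_pos r with h0 | h0
    · subst h0
      simp only [if_true, Nat.zero_add, one_ne_zero, if_false, mix_empty, mix_univ]
      exact ⟨h, hf⟩
    · simp only [show ¬ r = 0 by omega, show ¬ r + 1 = 0 by omega, if_false, mix_univ]
      exact ⟨FoldRel.refl g, hg⟩

theorem FoldRel.shift {f g : Fin 6 → V} (h : FoldRel f g) :
    FoldRel (fun j => f (j + 1)) (fun j => g (j + 1)) := by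
  intro j hj
  have e1 : j + 2 + 1 = j + 1 + 2 := add_right_comm _ _ _
  have := h (j + 1) hj
  show f (j + 2 + 1) = f (j + 1) ∧ g (j + 1) = f (j + 1) ∧ g (j + 2 + 1) = f (j + 2 + 1)
  rw [e1]
  exact this

theorem Ser.shift {f g : Fin 6 → V} (h : Ser G f g) :
    Ser G (fun j => f (j + 1)) (fun j => g (j + 1)) := by
  obtain ⟨A, h0, hm, h6, hr⟩ := h
  refine ⟨fun r => {j | j + 1 ∈ A r}, ?_, fun a b hab j hj => hm hab hj, ?_, fun r hr' => ?_⟩
  · ext j; simp [h0]
  · ext j; simp [h6]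
  · have e : ∀ r, mix {j | j + 1 ∈ A r} (fun j => f (j + 1)) (fun j => g (j + 1)) =
        fun j => mix (A r) f g (j + 1) := fun r => by
      funext j
      rfl
    obtain ⟨k1, k2⟩ := hr r hr'
    simp only [e]
    exact ⟨k1.shift, fun j => k2 (j + 1)⟩

/-! ## Wild form -/

variable {κ Λ : Type*} {Y : κ → Λ → Set ℝ}

theorem per_nat (w : MC Y) (c₀ : κ) (a : ℝ) (q : ℕ) (m : Λ) :
    a + q ∈ Y c₀ m ↔ a + ((fi q).val : ℝ) ∈ Y c₀ m := by
  have key : ∀ k : ℕ, ∀ b : ℝ, b + 6 * (k : ℝ) ∈ Y c₀ m ↔ b ∈ Y c₀ m := by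
    intro k
    induction k with
    | zero => intro b; simp
    | succ k ih =>
      intro b
      rw [show b + 6 * ((k + 1 : ℕ) : ℝ) = b + 6 * (k : ℝ) + 6 by push_cast; ring, w.per, ih]
  have e : (q : ℝ) = ((fi q).val : ℝ) + 6 * ((q / 6 : ℕ) : ℝ) := by
    have h1 : q = q % 6 + 6 * (q / 6) := (Nat.mod_add_div q 6).symm
    have h2 : (fi q).val = q % 6 := rfl
    rw [h2]
    exact_mod_cast h1
  rw [e, ← add_assoc, key]

/-- **Drift theorem on a circle, wild form.**  `Y c₀ m` = the directions (units of 60 degrees) at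
which the letter `m` is available.  If every event is a product of folds (`Ser`, with `G`-adjacent
neighbours), then there are a cyclically reduced closed walk `g` of odd period
`l` and directions `θ 0 < θ 1 < ..`, `3 l` of them in one turn of the circle, at which the only
letter is `g 0, g 2, g 4, ..`. -/
theorem drift_circle [Finite κ] [Finite Λ] (w : MC Y) (c₀ : κ) {G : Λ → Λ → Prop}
    (sym : ∀ x y, G x y → G y x) (irr : ∀ x, ¬ G x x)
    (hser : ∀ u : ℝ, ∀ h ∈ LC (slots Y) u, ∀ h' ∈ RC (slots Y) u,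
      Ser G (fun j => h (c₀, j)) fun j => h' (c₀, j)) :
    ∃ (l : ℕ) (g : ℕ → Λ) (θ : ℕ → ℝ), l % 2 = 1 ∧ 3 ≤ l ∧ (∀ i, g (i + l) = g i) ∧
      (∀ i, G (g i) (g (i + 1))) ∧ (∀ i, g (i + 2) ≠ g i) ∧ StrictMono θ ∧
      (∀ q, θ (q + 3 * l) = θ q + 6) ∧ ∀ q m, θ q ∈ Y c₀ m ↔ m = g (2 * q) := by
  obtain ⟨n, t, hn, htm, htp, hst⟩ := exists_chain w
    (R := fun h h' => Ser G (fun j => h (c₀, j)) fun j => h' (c₀, j)) hser
    (fun h h' hh => hh.shift)
  let h : ℕ → κ × Fin 6 → Λ := fun i k => (w.cover k.1 (t i + (k.2.val : ℝ))).choose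
  have hh : ∀ i k, t i ∈ slots Y k (h i k) := fun i k =>
    (w.cover k.1 (t i + (k.2.val : ℝ))).choose_spec
  let f : ℕ → Fin 6 → Λ := fun i j => h i (c₀, j)
  have hf : ∀ i (j : Fin 6) m, t i + (j.val : ℝ) ∈ Y c₀ m ↔ m = f i j := by
    intro i j m
    constructor
    · intro hm
      obtain ⟨l, hl⟩ := (hst i).2.1 (c₀, j)
      rw [hl m hm, hl (f i j) (hh i (c₀, j))]
    · rintro rfl
      exact hh i (c₀, j)
  have hS : ∀ i, Ser G (f i) (f (i + 1)) := fun i => (hst i).2.2.2 (h i) (h (i + 1)) (hh i) (hh _)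
  have hfn : ∀ j, f n j = f 0 (j + 1) := by
    intro j
    rw [← hf 0 (j + 1), ← w.shift_mem (t 0) c₀ j, ← htp 0, Nat.zero_add, hf]
  choose A hA0 hAm hA6 hAr using hS
  let c : ℕ → Fin 6 → Λ := fun r => mix (A (r / 6) (r % 6)) (f (r / 6)) (f (r / 6 + 1))
  have hc0 : ∀ i, c (6 * i) = f i := by
    intro i
    show mix (A (6 * i / 6) (6 * i % 6)) (f (6 * i / 6)) (f (6 * i / 6 + 1)) = f i
    rw [show 6 * i / 6 = i by omega, show 6 * i % 6 = 0 by omega, hA0, mix_empty]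
  have hcs : ∀ r, c (r + 1) = mix (A (r / 6) (r % 6 + 1)) (f (r / 6)) (f (r / 6 + 1)) := by
    intro r
    rcases Nat.lt_or_ge (r % 6 + 1) 6 with h1 | h1
    · show mix (A ((r + 1) / 6) ((r + 1) % 6)) (f ((r + 1) / 6)) (f ((r + 1) / 6 + 1)) = _
      rw [show (r + 1) / 6 = r / 6 by omega, show (r + 1) % 6 = r % 6 + 1 by omega]
    · have e1 : r + 1 = 6 * (r / 6 + 1) := by omega
      have e2 : r % 6 + 1 = 6 := by omega
      rw [e1, hc0, e2, hA6, mix_univ]
  have hN : 0 < 6 * n := by omega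
  have hF : Folded G (6 * n) (word (6 * n) c) := by
    refine Folded.of_columns hN (fun r _ j => ?_) (fun r _ => ?_) fun j => ?_
    · exact (hAr (r / 6) (r % 6) (Nat.mod_lt _ (by norm_num))).2 j
    · rw [hcs]
      exact (hAr (r / 6) (r % 6) (Nat.mod_lt _ (by norm_num))).1
    · rw [hc0]
      have := hc0 0
      rw [Nat.mul_zero] at this
      rw [this]
      exact hfn j
  classical
  -- the times of the letters
  let T : ℕ → Fin 6 → ℝ := fun r j => if j ∈ A (r / 6) (r % 6) then t (r / 6 + 1) else t (r / 6)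
  have hT0 : ∀ i j, T (6 * i) j = t i := by
    intro i j
    show (if j ∈ A (6 * i / 6) (6 * i % 6) then t (6 * i / 6 + 1) else t (6 * i / 6)) = t i
    rw [show 6 * i / 6 = i by omega, show 6 * i % 6 = 0 by omega, hA0, if_neg (Set.notMem_empty j)]
  have hTs : ∀ r j, T (r + 1) j =
      if j ∈ A (r / 6) (r % 6 + 1) then t (r / 6 + 1) else t (r / 6) := by
    intro r j
    rcases Nat.lt_or_ge (r % 6 + 1) 6 with h1 | h1
    · show (if j ∈ A ((r + 1) / 6) ((r + 1) % 6) then t ((r + 1) / 6 + 1) else t ((r + 1) / 6)) = _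
      rw [show (r + 1) / 6 = r / 6 by omega, show (r + 1) % 6 = r % 6 + 1 by omega]
    · have e1 : r + 1 = 6 * (r / 6 + 1) := by omega
      have e2 : r % 6 + 1 = 6 := by omega
      rw [e1, hT0, e2, hA6, if_pos (mem_univ j)]
  have hTle : ∀ r j, T r j ≤ T (r + 1) j := by
    intro r j
    rw [hTs]
    show (if j ∈ A (r / 6) (r % 6) then t (r / 6 + 1) else t (r / 6)) ≤ _
    by_cases h1 : j ∈ A (r / 6) (r % 6)
    · rw [if_pos h1, if_pos (hAm (r / 6) (Nat.le_succ _) h1)]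
    · rw [if_neg h1]
      have h2 : t (r / 6) < t (r / 6 + 1) := htm (Nat.lt_succ_self _)
      split_ifs
      · exact h2.le
      · exact le_rfl
  have hTc : ∀ r (j : Fin 6) m, T r j + (j.val : ℝ) ∈ Y c₀ m ↔ m = c r j := by
    intro r j m
    show (if j ∈ A (r / 6) (r % 6) then t (r / 6 + 1) else t (r / 6)) + (j.val : ℝ) ∈ Y c₀ m ↔
      m = (if j ∈ A (r / 6) (r % 6) then f (r / 6 + 1) j else f (r / 6) j)
    by_cases h1 : j ∈ A (r / 6) (r % 6)
    · rw [if_pos h1, if_pos h1, hf]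
    · rw [if_neg h1, if_neg h1, hf]
  -- the directions
  let D : ℕ → ℝ := fun s => T (s % (6 * n)) (fi (s / (6 * n))) + ((s / (6 * n) : ℕ) : ℝ)
  have hDY : ∀ s m, D s ∈ Y c₀ m ↔ m = word (6 * n) c s := by
    intro s m
    show T (s % (6 * n)) (fi (s / (6 * n))) + ((s / (6 * n) : ℕ) : ℝ) ∈ Y c₀ m ↔ _
    rw [per_nat w, hTc]
    rfl
  have hDs : ∀ s, D (s + 1) = T (s % (6 * n) + 1) (fi (s / (6 * n))) + ((s / (6 * n) : ℕ) : ℝ) := by
    intro s
    show T ((s + 1) % (6 * n)) (fi ((s + 1) / (6 * n))) + (((s + 1) / (6 * n) : ℕ) : ℝ) = _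
    rcases succ_cases hN s with ⟨-, e1, e2⟩ | ⟨e4, e1, e2⟩
    · rw [e1, e2]
    · rw [e1, e2, e4, hT0]
      have h1 := hT0 0 (fi (s / (6 * n) + 1))
      rw [Nat.mul_zero] at h1
      have h2 := htp 0
      rw [Nat.zero_add] at h2
      rw [h1, h2]
      push_cast
      ring
  have hDm : Monotone D := monotone_nat_of_le_succ fun s => by
    rw [hDs]
    show T (s % (6 * n)) (fi (s / (6 * n))) + ((s / (6 * n) : ℕ) : ℝ) ≤ _
    have := hTle (s % (6 * n)) (fi (s / (6 * n)))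
    linarith
  have hDp : ∀ s, D (s + 6 * (6 * n)) = D s + 6 := by
    intro s
    show T ((s + 6 * (6 * n)) % (6 * n)) (fi ((s + 6 * (6 * n)) / (6 * n))) +
      (((s + 6 * (6 * n)) / (6 * n) : ℕ) : ℝ) = T (s % (6 * n)) (fi (s / (6 * n))) +
      ((s / (6 * n) : ℕ) : ℝ) + 6
    rw [Nat.add_mul_mod_self_right, Nat.add_mul_div_right _ _ hN, fi_add, fi_six, add_zero]
    push_cast
    ring
  obtain ⟨l, g, S, h1, h3, hper, hgadj, hred, hSm, hSp, hSw⟩ := hF.drift sym irr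
  have hDg : ∀ q m, D (S q) ∈ Y c₀ m ↔ m = g (2 * q) := fun q m => by rw [hDY, hSw]
  refine ⟨l, g, fun q => D (S q), h1, h3, hper, hgadj, hred, ?_, fun q => ?_, hDg⟩
  · refine strictMono_nat_of_lt_succ fun q => ?_
    show D (S q) < D (S (q + 1))
    refine lt_of_le_of_ne (hDm (hSm (Nat.lt_succ_self q)).le) fun e => ?_
    have e1 := (hDg q (g (2 * q))).2 rfl
    rw [e] at e1
    have e2 := (hDg (q + 1) _).1 e1
    exact hred (2 * q) e2.symm
  · show D (S (q + 3 * l)) = D (S q) + 6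
    rw [hSp, hDp]

/-- wild form with an edge set `R` outside which the letters are 2-coloured -/
theorem alternate_circle [Finite κ] [Finite Λ] (w : MC Y) (c₀ : κ) {G : Λ → Λ → Prop}
    (sym : ∀ x y, G x y → G y x) (irr : ∀ x, ¬ G x x)
    (hser : ∀ u : ℝ, ∀ h ∈ LC (slots Y) u, ∀ h' ∈ RC (slots Y) u,
      Ser G (fun j => h (c₀, j)) fun j => h' (c₀, j))
    {R : Λ → Λ → Prop} {col : Λ → Prop} (hcol : ∀ x y, G x y → ¬ R x y → (col x ↔ ¬ col y)) :
    ∃ p q, G p q ∧ R p q ∧ ∃ θ : ℕ → ℝ, StrictMono θ ∧ (∀ k, θ (k + 6) = θ k + 6) ∧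
      (∀ k m, θ (2 * k) ∈ Y c₀ m ↔ m = p) ∧ ∀ k m, θ (2 * k + 1) ∈ Y c₀ m ↔ m = q := by
  obtain ⟨l, g, θ, h1, h3, hper, hgadj, hred, hθ, hθp, hθY⟩ := drift_circle w c₀ sym irr hser
  obtain ⟨i, hi⟩ := exists_edge h1 hper hgadj hcol
  have hne : g i ≠ g (i + 1) := fun e => by
    have := hgadj i
    rw [e] at this
    exact irr _ this
  obtain ⟨t, t1, t2, t3, t4⟩ := alternate_idx h1 hper hne
  refine ⟨g i, g (i + 1), hgadj i, hi, fun k => θ (t k), hθ.comp t1, fun k => ?_, fun k m => ?_,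
    fun k m => ?_⟩
  · show θ (t (k + 6)) = θ (t k) + 6
    rw [t2, hθp]
  · show θ (t (2 * k)) ∈ Y c₀ m ↔ m = g i
    rw [hθY, t3]
  · show θ (t (2 * k + 1)) ∈ Y c₀ m ↔ m = g (i + 1)
    rw [hθY, t4]

theorem adj_LC {c₀ : κ} {G : Λ → Λ → Prop}
    (hadj : ∀ u ∈ Gen (slots Y), ∀ h : κ × Fin 6 → Λ, (∀ k, u ∈ slots Y k (h k)) →
      ∀ j, G (h (c₀, j)) (h (c₀, j + 1))) {u : ℝ} {h : κ × Fin 6 → Λ} (hh : h ∈ LC (slots Y) u) :
    ∀ j, G (h (c₀, j)) (h (c₀, j + 1)) := by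
  obtain ⟨v, hv, hv2⟩ := Frequently.exists hh
  exact hadj v hv h hv2

theorem adj_RC {c₀ : κ} {G : Λ → Λ → Prop}
    (hadj : ∀ u ∈ Gen (slots Y), ∀ h : κ × Fin 6 → Λ, (∀ k, u ∈ slots Y k (h k)) →
      ∀ j, G (h (c₀, j)) (h (c₀, j + 1))) {u : ℝ} {h : κ × Fin 6 → Λ} (hh : h ∈ RC (slots Y) u) :
    ∀ j, G (h (c₀, j)) (h (c₀, j + 1)) := by
  obtain ⟨v, hv, hv2⟩ := Frequently.exists hh
  exact hadj v hv h hv2

/-- the hypothesis `Ser` from simultaneous folds -/
theorem ser_of_fold {c₀ : κ} {G : Λ → Λ → Prop}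
    (hadj : ∀ u ∈ Gen (slots Y), ∀ h : κ × Fin 6 → Λ, (∀ k, u ∈ slots Y k (h k)) →
      ∀ j, G (h (c₀, j)) (h (c₀, j + 1)))
    (hfold : ∀ u : ℝ, ∀ h ∈ LC (slots Y) u, ∀ h' ∈ RC (slots Y) u,
      FoldRel (fun j => h (c₀, j)) fun j => h' (c₀, j)) :
    ∀ u : ℝ, ∀ h ∈ LC (slots Y) u, ∀ h' ∈ RC (slots Y) u,
      Ser G (fun j => h (c₀, j)) fun j => h' (c₀, j) :=
  fun u h hh h' hh' => Ser.of_fold (hfold u h hh h' hh') (adj_LC hadj hh) (adj_RC hadj hh')

end Vale.Agent.P032.H667
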