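import Vale.Agent.P032.H667.Track

/-!
# P032: the drift theorem (helper667, row R.DRIFT, text helper715)

If all events of one turn are folds, then the letters met on the circle contain, three times in
order, the cyclic word of every second letter of a cyclically reduced closed walk of odd length.
-/

namespace Vale.Agent.P032.H667

variable {V : Type*}

/-! ## Lists along a reduced walk -/

/-- the list `c N, .., c 0` -/
def up (c : ℕ → V) : ℕ → List V
  | 0 => [c 0]
  | N + 1 => c (N + 1) :: up c N

theorem hd_up (c : ℕ → V) (N : ℕ) : Hd (c N) (up c N) := by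
  cases N with
  | zero => exact ⟨_, rfl⟩
  | succ N => exact ⟨_, rfl⟩

theorem length_up (c : ℕ → V) (N : ℕ) : (up c N).length = N + 1 := by
  induction N with
  | zero => rfl
  | succ N ih => simp [up, ih]

theorem up_ne_nil (c : ℕ → V) (N : ℕ) : up c N ≠ [] := by
  obtain ⟨l, h⟩ := hd_up c N
  rw [h]
  simp

theorem up_suffix (c : ℕ → V) (K m : ℕ) : up c K <:+ up c (K + m) := by
  induction m with
  | zero => exact List.suffix_rfl
  | succ m ih => exact ih.trans (List.suffix_cons _ _)

theorem push_up {c : ℕ → V} (hc : ∀ i, c (i + 2) ≠ c i) (N : ℕ) :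
    push (c (N + 1)) (up c N) = up c (N + 1) := by
  match N with
  | 0 => rfl
  | 1 => simp [up, push, (hc 0).symm]
  | N + 2 =>
    have : c (N + 1) ≠ c (N + 2 + 1) := (hc (N + 1)).symm
    simp [up, push, this]

theorem NB.up {c : ℕ → V} (hc : ∀ i, c (i + 2) ≠ c i) (N : ℕ) : NB (up c N) := by
  induction N with
  | zero => trivial
  | succ N ih => rw [← push_up hc]; exact ih.push

theorem go_up {c : ℕ → V} (hc : ∀ i, c (i + 2) ≠ c i) (N m : ℕ) :
    go (fun i => c (N + i)) (up c N) m = up c (N + m) := by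
  induction m with
  | zero => rfl
  | succ m ih =>
    show push (c (N + m + 1)) (go (fun i => c (N + i)) (up c N) m) = _
    rw [ih, push_up hc]
    rfl

/-- walking back -/
theorem go_back (a : ℕ → V) (j : ℕ) {X : List V} (hX : NB X) (hx : Hd (a j) X) :
    go a (go (fun i => a (j - i)) X j) j = X := by
  have key : ∀ i ≤ j, go a (go (fun i => a (j - i)) X j) i = go (fun i => a (j - i)) X (j - i) := by
    intro i
    induction i with
    | zero => intro _; rfl
    | succ i ih =>
      intro hi
      have h1 := ih (by omega)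
      show push (a (i + 1)) (go a (go (fun i => a (j - i)) X j) i) = _
      rw [h1]
      obtain ⟨k, hk⟩ : ∃ k, j - i = k + 1 := ⟨j - i - 1, by omega⟩
      have hk' : j - (i + 1) = k := by omega
      rw [hk, hk']
      show push (a (i + 1)) (push (a (j - (k + 1))) (go (fun i => a (j - i)) X k)) = _
      refine push_push (hX.go k) ?_
      have h2 := hd_go (f := fun i => a (j - i)) (L := X) (by simpa using hx) k
      have h3 : j - k = i + 1 := by omega
      simp only [h3] at h2
      exact h2
  have := key j le_rfl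
  simpa [go] using this

/-- a reduced continuation only conses -/
theorem suffix_go {f : ℕ → V} {x : V} {l : List V} (h0 : f 0 = x) (h1 : ∀ y l', l = y :: l' → f 1 ≠ y)
    {m : ℕ} (hr : ∀ i, i + 2 ≤ m → f (i + 2) ≠ f i) :
    ∀ k < m, go f (x :: l) (k + 1) = f (k + 1) :: go f (x :: l) k := by
  intro k
  induction k with
  | zero =>
    intro hk
    show push (f 1) (x :: l) = f 1 :: x :: l
    match l, h1 with
    | [], _ => rfl
    | y :: l', h1 =>
      have := h1 y l' rfl
      simp [push, this.symm]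
  | succ k ih =>
    intro hk
    have h2 := ih (by omega)
    obtain ⟨l', hl'⟩ := hd_go (f := f) (L := x :: l) ⟨l, by rw [h0]⟩ k
    show push (f (k + 1 + 1)) (go f (x :: l) (k + 1)) = _
    rw [h2, hl']
    have := (hr k (by omega)).symm
    simp [push, this]

theorem suffix_go' {f : ℕ → V} {x : V} {l : List V} (h0 : f 0 = x)
    (h1 : ∀ y l', l = y :: l' → f 1 ≠ y) {m : ℕ} (hr : ∀ i, i + 2 ≤ m → f (i + 2) ≠ f i)
    {k k' : ℕ} (hk : k ≤ k') (hk' : k' ≤ m) : go f (x :: l) k <:+ go f (x :: l) k' := by
  obtain ⟨d, rfl⟩ := Nat.exists_eq_add_of_le hk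
  induction d with
  | zero => exact List.suffix_rfl
  | succ d ih =>
    have h2 := suffix_go h0 h1 hr (k + d) (by omega)
    rw [← Nat.add_assoc, h2]
    exact (ih (by omega) (by omega)).trans (List.suffix_cons _ _)

/-! ## Visits -/

theorem visit {f : ℕ → V} {L K : List V} (h0 : ¬ K <:+ L) :
    ∀ N, K <:+ go f L N → ∃ t, 1 ≤ t ∧ t ≤ N ∧ go f L t = K ∧
      ∀ t', t ≤ t' → t' ≤ N → K <:+ go f L t' := by
  intro N
  induction N with
  | zero => intro h; exact absurd h h0
  | succ N ih =>
    intro h
    by_cases hN : K <:+ go f L N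
    · obtain ⟨t, h1, h2, h3, h4⟩ := ih hN
      refine ⟨t, h1, by omega, h3, fun t' a b => ?_⟩
      rcases Nat.lt_or_ge N t' with hh | hh
      · have : t' = N + 1 := by omega
        rw [this]; exact h
      · exact h4 t' a hh
    · refine ⟨N + 1, by omega, le_rfl, ?_, fun t' a b => ?_⟩
      · rcases push_cases (f (N + 1)) (go f L N) with h5 | ⟨x, h5⟩
        · have h6 : K <:+ f (N + 1) :: go f L N := by rw [← h5]; exact h
          rcases List.suffix_cons_iff.1 h6 with h7 | h7
          · show push (f (N + 1)) (go f L N) = K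
            rw [h5, h7]
          · exact absurd h7 hN
        · exfalso
          apply hN
          rw [h5]
          exact (show K <:+ push (f (N + 1)) (go f L N) from h).trans (List.suffix_cons _ _)
      · have : t' = N + 1 := by omega
        rw [this]; exact h

/-! ## One turn -/

variable {G : V → V → Prop} {n : ℕ} {w : ℕ → V}

/-- the track of the slot `0` during one sixth of a turn, and back by one edge -/
noncomputable def bet (n : ℕ) (w : ℕ → V) (L : List V) : List V :=
  push (w 0) (go (U n w 0) L (2 * n))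

theorem NB.bet {L : List V} (hL : NB L) : NB (bet n w L) := (hL.go _).push

theorem hd_bet (L : List V) : Hd (w 0) (bet n w L) := hd_push _ _

theorem NB.iter {L : List V} (hL : NB L) (k : ℕ) : NB ((H667.bet n w)^[k] L) := by
  induction k with
  | zero => exact hL
  | succ k ih => rw [Function.iterate_succ_apply']; exact ih.bet

theorem hd_iter {L : List V} (hx : Hd (w 0) L) (k : ℕ) : Hd (w 0) ((bet n w)^[k] L) := by
  cases k with
  | zero => exact hx
  | succ k => rw [Function.iterate_succ_apply']; exact hd_bet _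

theorem Folded.track (h : Folded G n w) (k : ℕ) {L : List V} (hL : NB L) (hx : Hd (w 0) L) :
    go (U n w 0) L (2 * (k * n)) = go (col n w 0) ((bet n w)^[k] L) k := by
  induction k with
  | zero => simp [go]
  | succ k ih =>
    set M := (bet n w)^[k] L with hM
    have hMN : NB M := hL.iter k
    have hMx : Hd (w 0) M := hd_iter hx k
    have e1 : 2 * ((k + 1) * n) = 2 * (k * n) + 2 * n := by ring
    rw [e1, go_add, ih]
    have e2 : (fun i => U n w 0 (2 * (k * n) + i)) = U n w (0 + k * n) := by
      funext i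
      have a1 : (2 * (k * n) + i) / 2 = k * n + i / 2 := by omega
      have a2 : (2 * (k * n) + i) % 2 = i % 2 := by omega
      simp only [U, a1, a2, Nat.zero_add]
    rw [e2, ← h.square_col 0 n k hMN]
    set Y := go (U n w 0) M (2 * n) with hY
    have hYN : NB Y := hMN.go _
    have hYx : Hd (w n) Y := by
      have := hd_U (n := n) (w := w) (s := 0) hMx n
      rwa [Nat.zero_add] at this
    have e3 : Y = push (w n) (bet n w M) := (push_push hYN hYx).symm
    have e4 : (bet n w)^[k + 1] L = bet n w M := by rw [Function.iterate_succ_apply']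
    rw [e4, Nat.add_comm k 1, go_add, e3]
    have e5 : (fun i => col n w 0 (1 + i)) = col n w (0 + n) := by
      funext i
      show w (0 + (1 + i) * n) = w (0 + n + i * n)
      congr 1
      ring
    rw [e5]
    show go (col n w (0 + n)) (push (w n) (bet n w M)) k =
      go (col n w (0 + n)) (push (w (0 + 1 * n)) (bet n w M)) k
    rw [Nat.one_mul, Nat.zero_add]

theorem Folded.track_six (h : Folded G n w) (irr : ∀ x, ¬ G x x) {L : List V} (hL : NB L)
    (hx : Hd (w 0) L) : go (U n w 0) L (2 * (6 * n)) = (bet n w)^[6] L := by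
  rw [h.track 6 hL hx]
  exact h.null irr _ (hL.iter 6) (hd_iter hx 6)

theorem Folded.change (h : Folded G n w) {s : ℕ} (hs : w (s + 1) ≠ w s) :
    w (s + 1 + n) = w (s + n) := by
  have H0 := h.alt s 5
  have e6 : w (s + 6 * n) = w s := h.per s
  have e6' : w (s + 1 + 6 * n) = w (s + 1) := h.per _
  have e7 : w (s + 7 * n) = w (s + n) := by
    rw [show s + 7 * n = s + n + 6 * n by ring, h.per]
  have e7' : w (s + 1 + 7 * n) = w (s + 1 + n) := by
    rw [show s + 1 + 7 * n = s + 1 + n + 6 * n by ring, h.per]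
  simp only [Nat.reduceAdd] at H0
  rw [e6, e6', e7, e7'] at H0
  rcases H0 with H0 | H0
  · exact absurd H0 hs
  · exact H0.2.2

theorem Folded.adj' (h : Folded G n w) (sym : ∀ x y, G x y → G y x) (s : ℕ) :
    G (w (s + n)) (w (s + 1)) := by
  by_cases hs : w (s + 1) = w s
  · rw [hs]; exact sym _ _ (h.adj s)
  · have h1 := h.adj (s + 1)
    rw [h.change hs] at h1
    exact sym _ _ h1

/-- the reduced form of `bet` -/
theorem Folded.exists_bet (h : Folded G n w) (sym : ∀ x y, G x y → G y x) (irr : ∀ x, ¬ G x x) :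
    ∃ (M : ℕ) (a : ℕ → V), a 0 = w 0 ∧ a M = w 0 ∧ M % 2 = 1 ∧ 3 ≤ M ∧
      (∀ i < M, G (a i) (a (i + 1))) ∧ (∀ i, i + 2 ≤ M → a (i + 2) ≠ a i) ∧
      ∀ L : List V, NB L → Hd (w 0) L → bet n w L = go a L M := by
  let f : ℕ → V := fun i => if i = 2 * n + 1 then w 0 else U n w 0 i
  have hf : ∀ i, i ≤ 2 * n → f i = U n w 0 i := fun i hi => if_neg (by omega)
  have hf1 : f (2 * n + 1) = w 0 := if_pos rfl
  have hf0 : f 0 = w 0 := by rw [hf 0 (by omega)]; simp [U]
  obtain ⟨M, a, h0, hM, hpar, hadj, hred, hact⟩ := exists_reduced (G := G) f (2 * n + 1) (by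
    intro i hi
    rcases Nat.lt_or_ge i (2 * n) with h1 | h1
    · rw [hf i (by omega), hf (i + 1) (by omega)]
      rcases Nat.even_or_odd' i with ⟨t, rfl | rfl⟩
      · rw [U_even, U_odd]
        exact h.adj _
      · rw [U_odd, show 2 * t + 1 + 1 = 2 * (t + 1) by ring, U_even]
        exact h.adj' sym (0 + t)
    · have : i = 2 * n := by omega
      subst this
      rw [hf _ le_rfl, hf1, U_even]
      have := h.adj 0
      exact sym _ _ this)
  rw [hf0] at h0
  rw [hf1] at hM
  have hM3 : 3 ≤ M := by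
    by_contra hcon
    have : M = 1 := by omega
    subst this
    have := hadj 0 (by omega)
    rw [h0] at this
    rw [show (0 + 1) = 1 from rfl, hM] at this
    exact irr _ this
  refine ⟨M, a, h0, hM, by omega, hM3, hadj, hred, fun L hL hx => ?_⟩
  rw [← hact L hL (by rw [hf0]; exact hx)]
  show push (w 0) (go (U n w 0) L (2 * n)) = push (f (2 * n + 1)) (go f L (2 * n))
  rw [hf1]
  congr 1
  exact go_congr fun i _ hi => (hf i hi).symm

/-! ## The cyclically reduced core -/

theorem exists_core {M : ℕ} {a : ℕ → V} (irr : ∀ x, ¬ G x x) (h0 : a 0 = a M) (hM : M % 2 = 1)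
    (hadj : ∀ i < M, G (a i) (a (i + 1))) :
    ∃ j, 2 * j + 3 ≤ M ∧ (∀ i ≤ j, a i = a (M - i)) ∧ a (j + 1) ≠ a (M - j - 1) := by
  classical
  have hex : ∃ i, a i ≠ a (M - i) := by
    refine ⟨(M - 1) / 2, fun e => ?_⟩
    have h1 := hadj ((M - 1) / 2) (by omega)
    rw [show (M - 1) / 2 + 1 = M - (M - 1) / 2 by omega, ← e] at h1
    exact irr _ h1
  have hspec := Nat.find_spec hex
  have hmin : ∀ i < Nat.find hex, a i = a (M - i) := fun i hi => by
    by_contra hne
    exact Nat.find_min hex hi hne
  have hpos : Nat.find hex ≠ 0 := fun e => by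
    rw [e] at hspec
    exact hspec h0
  have hle : Nat.find hex ≤ (M - 1) / 2 := Nat.find_min' hex (fun e => by
    have h1 := hadj ((M - 1) / 2) (by omega)
    rw [show (M - 1) / 2 + 1 = M - (M - 1) / 2 by omega, ← e] at h1
    exact irr _ h1)
  obtain ⟨j, hj⟩ := Nat.exists_eq_succ_of_ne_zero hpos
  rw [hj] at hspec hmin hle
  refine ⟨j, by omega, fun i hi => hmin i (by omega), ?_⟩
  rw [show M - j - 1 = M - (j + 1) by omega]
  exact hspec

/-- **The drift theorem**, finite form -/
theorem Folded.drift_aux (h : Folded G n w) (sym : ∀ x y, G x y → G y x) (irr : ∀ x, ¬ G x x) :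
    ∃ (l : ℕ) (c : ℕ → V) (d : ℕ) (s : ℕ → ℕ), l % 2 = 1 ∧ 3 ≤ l ∧ (∀ i, c (i + l) = c i) ∧
      (∀ i, G (c i) (c (i + 1))) ∧ (∀ i, c (i + 2) ≠ c i) ∧
      (∀ q q', q < q' → q' < 3 * l → s q < s q') ∧ (∀ q < 3 * l, 1 ≤ s q ∧ s q ≤ 6 * n) ∧
      ∀ q < 3 * l, w (s q) = c (2 * q + d) := by
  obtain ⟨M, a, ha0, haM, hM, hM3, hadj, hred, hact⟩ := h.exists_bet sym irr
  obtain ⟨j, hj, hsym, hne⟩ := exists_core irr (ha0.trans haM.symm) hM hadj
  obtain ⟨l, hl⟩ : ∃ l, M = j + l + j := ⟨M - 2 * j, by omega⟩
  have hl1 : l % 2 = 1 := by omega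
  have hl3 : 3 ≤ l := by omega
  let c : ℕ → V := fun i => a (j + i % l)
  have hcper : ∀ i, c (i + l) = c i := fun i => by
    show a (j + (i + l) % l) = a (j + i % l)
    rw [Nat.add_mod_right]
  have hjl : a (j + l) = a j := by
    have := hsym j le_rfl
    rw [this]
    congr 1
    omega
  -- values of `c` after a multiple of `l`
  have hcval : ∀ N t, N % l = 0 → t ≤ l → c (N + t) = a (j + t) := by
    intro N t hN ht
    show a (j + (N + t) % l) = a (j + t)
    rcases Nat.lt_or_ge t l with h1 | h1
    · rw [Nat.add_mod, hN, Nat.zero_add, Nat.mod_mod, Nat.mod_eq_of_lt h1]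
    · have : t = l := by omega
      subst this
      rw [Nat.add_mod_right, hN, Nat.add_zero, hjl]
  have hdec : ∀ i, ∃ N t, N % l = 0 ∧ t < l ∧ i = N + t := fun i =>
    ⟨l * (i / l), i % l, Nat.mul_mod_right _ _, Nat.mod_lt _ (by omega), (Nat.div_add_mod i l).symm⟩
  have hcadj : ∀ i, G (c i) (c (i + 1)) := by
    intro i
    obtain ⟨N, t, hN, ht, rfl⟩ := hdec i
    rw [hcval N t hN ht.le, Nat.add_assoc, hcval N (t + 1) hN ht]
    exact hadj (j + t) (by omega)
  have hcred : ∀ i, c (i + 2) ≠ c i := by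
    intro i
    obtain ⟨N, t, hN, ht, rfl⟩ := hdec i
    rcases Nat.lt_or_ge (t + 1) l with h1 | h1
    · rw [hcval N t hN ht.le, Nat.add_assoc, hcval N (t + 2) hN h1]
      exact hred (j + t) (by omega)
    · have ht' : t + 1 = l := by omega
      have e1 : N + t + 2 = (N + 1) + l := by omega
      rw [hcval N t hN ht.le, e1, hcper, hcval N 1 hN (by omega)]
      have e2 : M - j - 1 = j + t := by omega
      rw [e2] at hne
      exact hne
  -- the lists
  let b : ℕ → V := fun i => a (j - i)
  let X : ℕ → List V := fun N => go b (up c N) j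
  have hXN : ∀ N, NB (X N) := fun N => (NB.up hcred N).go j
  have hcN : ∀ N, N % l = 0 → c N = a j := fun N hN => hcval N 0 hN (Nat.zero_le _)
  have hXx : ∀ N, N % l = 0 → Hd (w 0) (X N) := by
    intro N hN
    have h1 := hd_go (f := b) (L := up c N)
      (by show Hd (a (j - 0)) (up c N); rw [Nat.sub_zero, ← hcN N hN]; exact hd_up c N) j
    have h2 : b j = w 0 := by show a (j - j) = w 0; rw [Nat.sub_self, ha0]
    rw [h2] at h1
    exact h1
  have hstep : ∀ N, N % l = 0 → bet n w (X N) = X (N + l) := by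
    intro N hN
    rw [hact _ (hXN N) (hXx N hN), hl, go_add, go_add]
    have h1 : go a (X N) j = up c N := by
      refine go_back a j (NB.up hcred N) ?_
      rw [← hcN N hN]
      exact hd_up c N
    rw [h1]
    have h2 : go (fun i => a (j + i)) (up c N) l = up c (N + l) := by
      rw [← go_up hcred N l]
      exact go_congr fun i _ hi => (hcval N i hN hi).symm
    rw [h2]
    show go (fun i => a (j + l + i)) (up c (N + l)) j = go b (up c (N + l)) j
    refine go_congr fun i _ hi => ?_
    show a (j + l + i) = a (j - i)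
    have h3 := hsym (j - i) (by omega)
    rw [h3]
    congr 1
    omega
  have hiter : ∀ k, (bet n w)^[k] (X 0) = X (k * l) := by
    intro k
    induction k with
    | zero => simp
    | succ k ih =>
      rw [Function.iterate_succ_apply', ih, hstep _ (Nat.mul_mod_left _ _)]
      congr 1
      ring
  have hend : go (U n w 0) (X 0) (2 * (6 * n)) = X (6 * l) := by
    rw [h.track_six irr (hXN 0) (hXx 0 (Nat.zero_mod _)), hiter]
  -- the lists of the axis are suffixes of the last list, not of the first one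
  have hb2 : ∀ i, i + 2 ≤ j → b (i + 2) ≠ b i := by
    intro i hi
    show a (j - (i + 2)) ≠ a (j - i)
    have := (hred (j - (i + 2)) (by omega)).symm
    rwa [show j - (i + 2) + 2 = j - i by omega] at this
  have hsufend : ∀ i ≤ 6 * l, up c i <:+ X (6 * l) := by
    intro i hi
    have h1 : up c i <:+ up c (6 * l) := by
      have := up_suffix c i (6 * l - i)
      rwa [Nat.add_sub_cancel' hi] at this
    refine h1.trans ?_
    rcases Nat.eq_zero_or_pos j with hj0 | hj0
    · show up c (6 * l) <:+ go b (up c (6 * l)) j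
      rw [hj0]
      exact List.suffix_rfl
    obtain ⟨N, hN⟩ : ∃ N, 6 * l = N + 2 := ⟨6 * l - 2, by omega⟩
    have h2 := suffix_go' (f := b) (x := c (N + 2)) (l := up c (N + 1)) (m := j)
      (by show a (j - 0) = c (N + 2); rw [Nat.sub_zero, ← hN, hcN _ (Nat.mul_mod_left _ _)]) (by
        intro y l' hy
        have h3 : c (N + 1) = y := by
          have h4 : c (N + 1) :: up c N = y :: l' := hy
          exact (List.cons.inj h4).1
        rw [← h3]
        show a (j - 1) ≠ c (N + 1)
        have h4 : c (N + 1) = a (M - j - 1) := by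
          have h5 := hcval (5 * l) (l - 1) (Nat.mul_mod_left _ _) (by omega)
          rw [show 5 * l + (l - 1) = N + 1 by omega] at h5
          rw [h5]
          congr 1
          omega
        rw [h4, hsym (j - 1) (by omega)]
        have h6 := hred (M - j - 1) (by omega)
        rwa [show M - j - 1 + 2 = M - (j - 1) by omega] at h6) hb2 (Nat.zero_le j) le_rfl
    show up c (6 * l) <:+ go b (up c (6 * l)) j
    rw [hN]
    exact h2
  have hnot : ∀ i, 1 ≤ i → ¬ up c i <:+ X 0 := by
    intro i hi hsuf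
    have h1 : up c 1 <:+ X 0 := by
      have := up_suffix c 1 (i - 1)
      rw [Nat.add_sub_cancel' hi] at this
      exact this.trans hsuf
    rcases Nat.eq_zero_or_pos j with hj0 | hj0
    · have h2 := h1.length_le
      have h3 : X 0 = [c 0] := by
        show go b (up c 0) j = [c 0]
        rw [hj0]
        rfl
      rw [h3, length_up] at h2
      simp at h2
    · have h2 : go b (c 0 :: []) 1 <:+ go b (c 0 :: []) j :=
        suffix_go' (f := b) (m := j) (by show a (j - 0) = c 0; rw [Nat.sub_zero, hcN 0 (Nat.zero_mod _)])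
          (fun y l' hy => absurd hy (by simp)) hb2 hj0 le_rfl
      have h3 : go b (c 0 :: []) 1 = [b 1, c 0] := rfl
      rw [h3] at h2
      have h4 : up c 1 = [c 1, c 0] := rfl
      rw [h4] at h1
      have h5 : [c 1, c 0] = [b 1, c 0] :=
        (List.suffix_of_suffix_length_le h1 h2 (by simp)).eq_of_length (by simp)
      have h6 : c 1 = b 1 := (List.cons.inj h5).1
      have h7 : c 1 = a (j + 1) := by
        have := hcval 0 1 (Nat.zero_mod _) (by omega)
        rwa [Nat.zero_add] at this
      have h8 : b 1 = a (j - 1) := rfl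
      rw [h7, h8] at h6
      have h9 := hred (j - 1) (by omega)
      rw [show j - 1 + 2 = j + 1 by omega] at h9
      exact h9 h6
  have hvis : ∀ i, ∃ t, 1 ≤ i → i ≤ 6 * l → 1 ≤ t ∧ t ≤ 2 * (6 * n) ∧
      go (U n w 0) (X 0) t = up c i ∧
      ∀ t', t ≤ t' → t' ≤ 2 * (6 * n) → up c i <:+ go (U n w 0) (X 0) t' := by
    intro i
    by_cases hi : 1 ≤ i ∧ i ≤ 6 * l
    · obtain ⟨t, ht⟩ := visit (f := U n w 0) (hnot i hi.1) (2 * (6 * n))
        (by rw [hend]; exact hsufend i hi.2)
      exact ⟨t, fun _ _ => ht⟩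
    · exact ⟨0, fun h1 h2 => absurd ⟨h1, h2⟩ hi⟩
  choose T hT using hvis
  have hlen : ∀ i, 1 ≤ i → i ≤ 6 * l → T i % 2 = (i + j) % 2 := by
    intro i h1 h2
    obtain ⟨-, -, h3, -⟩ := hT i h1 h2
    have hX0 : X 0 ≠ [] := go_ne_nil (up_ne_nil _ _) _
    have h4 := parity_go (f := U n w 0) hX0 (T i)
    rw [h3, length_up] at h4
    have h5 := parity_go (f := b) (up_ne_nil c 0) j
    rw [length_up] at h5
    have h6 : (X 0).length % 2 = (0 + 1 + j) % 2 := h5
    omega
  have hmono : ∀ i i', 1 ≤ i → i < i' → i' ≤ 6 * l → T i < T i' := by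
    intro i i' h1 h2 h3
    by_contra hcon
    push Not at hcon
    obtain ⟨-, b2, b3, -⟩ := hT i h1 (by omega)
    obtain ⟨-, -, -, b4⟩ := hT i' (by omega) h3
    have h4 := b4 (T i) hcon b2
    rw [b3] at h4
    have h5 := h4.length_le
    rw [length_up, length_up] at h5
    omega
  let d : ℕ := if j % 2 = 0 then 2 else 1
  have hd : (d + j) % 2 = 0 ∧ 1 ≤ d ∧ d ≤ 2 := by
    by_cases hj2 : j % 2 = 0
    · have : d = 2 := if_pos hj2
      omega
    · have : d = 1 := if_neg hj2
      omega
  refine ⟨l, c, d, fun q => T (2 * q + d) / 2, hl1, hl3, hcper, hcadj, hcred, ?_, ?_, ?_⟩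
  · intro q q' h1 h2
    have h3 := hmono (2 * q + d) (2 * q' + d) (by omega) (by omega) (by omega)
    have h4 := hlen (2 * q + d) (by omega) (by omega)
    have h5 := hlen (2 * q' + d) (by omega) (by omega)
    show T (2 * q + d) / 2 < T (2 * q' + d) / 2
    omega
  · intro q hq
    have h4 := hlen (2 * q + d) (by omega) (by omega)
    obtain ⟨b1, b2, -, -⟩ := hT (2 * q + d) (by omega) (by omega)
    show 1 ≤ T (2 * q + d) / 2 ∧ T (2 * q + d) / 2 ≤ 6 * n
    omega
  · intro q hq
    have h4 := hlen (2 * q + d) (by omega) (by omega)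
    obtain ⟨-, -, b3, -⟩ := hT (2 * q + d) (by omega) (by omega)
    have h5 : T (2 * q + d) = 2 * (T (2 * q + d) / 2) := by omega
    have h6 := hd_U (n := n) (w := w) (s := 0) (hXx 0 (Nat.zero_mod _)) (T (2 * q + d) / 2)
    rw [← h5, b3, Nat.zero_add] at h6
    obtain ⟨l1, e1⟩ := h6
    obtain ⟨l2, e2⟩ := hd_up c (2 * q + d)
    rw [e2] at e1
    exact ((List.cons.inj e1).1).symm

/-- **The drift theorem.**  `w s` = the letters met on the circle in order; then there are a
cyclically reduced closed walk `c` of odd period `l` and places `S 0 < S 1 < ..`, `3 l` of them in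
one turn of the circle, where the letters are `c 0, c 2, c 4, ..`. -/
theorem Folded.drift (h : Folded G n w) (sym : ∀ x y, G x y → G y x) (irr : ∀ x, ¬ G x x) :
    ∃ (l : ℕ) (c : ℕ → V) (S : ℕ → ℕ), l % 2 = 1 ∧ 3 ≤ l ∧ (∀ i, c (i + l) = c i) ∧
      (∀ i, G (c i) (c (i + 1))) ∧ (∀ i, c (i + 2) ≠ c i) ∧ StrictMono S ∧
      (∀ q, S (q + 3 * l) = S q + 6 * n) ∧ ∀ q, w (S q) = c (2 * q) := by
  obtain ⟨l, c, d, s, h1, h3, hper, hadj, hred, hmono, hrange, hval⟩ := h.drift_aux sym irr
  have hl : 0 < 3 * l := by omega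
  have hperm : ∀ i k, c (i + l * k) = c i := by
    intro i k
    induction k with
    | zero => rfl
    | succ k ih => rw [show i + l * (k + 1) = i + l * k + l by ring, hper, ih]
  refine ⟨l, fun i => c (i + d), fun q => s (q % (3 * l)) + 6 * n * (q / (3 * l)), h1, h3,
    fun i => ?_, fun i => ?_, fun i => ?_, ?_, fun q => ?_, fun q => ?_⟩
  · show c (i + l + d) = c (i + d)
    rw [show i + l + d = i + d + l by ring, hper]
  · show G (c (i + d)) (c (i + 1 + d))
    rw [show i + 1 + d = i + d + 1 by ring]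
    exact hadj _
  · show c (i + 2 + d) ≠ c (i + d)
    rw [show i + 2 + d = i + d + 2 by ring]
    exact hred _
  · refine strictMono_nat_of_lt_succ fun q => ?_
    show s (q % (3 * l)) + 6 * n * (q / (3 * l)) < s ((q + 1) % (3 * l)) + 6 * n * ((q + 1) / (3 * l))
    have hq := Nat.mod_lt q hl
    rcases Nat.lt_or_ge (q % (3 * l) + 1) (3 * l) with h4 | h4
    · have e1 : (q + 1) % (3 * l) = q % (3 * l) + 1 := by
        rw [Nat.add_mod, Nat.mod_eq_of_lt (show 1 < 3 * l by omega), Nat.mod_eq_of_lt h4]
      have e2 : (q + 1) / (3 * l) = q / (3 * l) := by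
        have a1 := Nat.div_add_mod q (3 * l)
        have a2 := Nat.div_add_mod (q + 1) (3 * l)
        rw [e1] at a2
        have a3 : 3 * l * ((q + 1) / (3 * l)) = 3 * l * (q / (3 * l)) := by omega
        exact Nat.eq_of_mul_eq_mul_left hl a3
      rw [e1, e2]
      have := hmono (q % (3 * l)) (q % (3 * l) + 1) (by omega) h4
      omega
    · have e0 : q % (3 * l) + 1 = 3 * l := by omega
      have e3 : q + 1 = 3 * l * (q / (3 * l) + 1) := by
        have a1 := Nat.div_add_mod q (3 * l)
        rw [Nat.mul_add, Nat.mul_one]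
        omega
      have e1 : (q + 1) % (3 * l) = 0 := by rw [e3]; exact Nat.mul_mod_right _ _
      have e2 : (q + 1) / (3 * l) = q / (3 * l) + 1 := by
        rw [e3]; exact Nat.mul_div_cancel_left _ hl
      rw [e1, e2]
      have a1 := (hrange (q % (3 * l)) hq).2
      have a2 := (hrange 0 hl).1
      have a3 : 6 * n * (q / (3 * l) + 1) = 6 * n * (q / (3 * l)) + 6 * n := by ring
      omega
  · show s ((q + 3 * l) % (3 * l)) + 6 * n * ((q + 3 * l) / (3 * l)) = _
    rw [Nat.add_mod_right, Nat.add_div_right _ hl]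
    ring
  · show w (s (q % (3 * l)) + 6 * n * (q / (3 * l))) = c (2 * q + d)
    rw [h.per_mul, hval _ (Nat.mod_lt q hl)]
    have a1 := Nat.div_add_mod q (3 * l)
    have a2 : 2 * q + d = 2 * (q % (3 * l)) + d + l * (6 * (q / (3 * l))) := by
      have a3 : l * (6 * (q / (3 * l))) = 2 * (3 * l * (q / (3 * l))) := by ring
      omega
    rw [a2, hperm]

end Vale.Agent.P032.H667
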