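import Mathlib

/-!
# P032: reduced walks (helper667)

A vertex of the tree of reduced walks is a list without backtracking (head = end of the walk).
`push v L` goes on to `v` and reduces.
-/

namespace Vale.Agent.P032.H667

variable {V : Type*}

open Classical in
/-- go on to the letter `v` and reduce -/
noncomputable def push (v : V) : List V → List V
  | [] => [v]
  | [x] => [v, x]
  | x :: y :: l => if y = v then y :: l else v :: x :: y :: l

/-- no backtracking -/
def NB : List V → Prop
  | [] => True
  | [_] => True
  | [_, _] => True
  | x :: y :: z :: l => z ≠ x ∧ NB (y :: z :: l)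

theorem NB.tail {x : V} {l : List V} (h : NB (x :: l)) : NB l := by
  match l, h with
  | [], _ => trivial
  | [y], _ => trivial
  | y :: z :: l, h => exact h.2

theorem NB.push {v : V} {l : List V} (h : NB l) : NB (push v l) := by
  match l, h with
  | [], _ => trivial
  | [x], _ => trivial
  | x :: y :: l, h =>
    by_cases hy : y = v
    · simp only [H667.push, if_pos hy]
      exact h.tail
    · simp only [H667.push, if_neg hy]
      exact ⟨hy, h⟩

/-- the head of the list -/
def Hd (v : V) (l : List V) : Prop := ∃ l', l = v :: l'

theorem hd_push (v : V) (l : List V) : Hd v (push v l) := by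
  match l with
  | [] => exact ⟨_, rfl⟩
  | [x] => exact ⟨_, rfl⟩
  | x :: y :: l =>
    by_cases hy : y = v
    · refine ⟨l, ?_⟩
      simp only [push, if_pos hy]
      rw [hy]
    · exact ⟨x :: y :: l, by simp only [push, if_neg hy]⟩

theorem push_push {x v : V} {l : List V} (h : NB l) (hx : Hd x l) : push x (push v l) = l := by
  obtain ⟨l', rfl⟩ := hx
  match l', h with
  | [], _ => simp [push]
  | [y], _ =>
    by_cases hy : y = v
    · simp [push, hy]
    · simp [push, hy]
  | y :: z :: l, h =>
    by_cases hy : y = v
    · have : z ≠ x := h.1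
      simp [push, hy, this]
    · simp [push, hy]

/-- pushing a letter changes the parity of the length -/
theorem length_push (v : V) {l : List V} (hl : l ≠ []) :
    (push v l).length = l.length + 1 ∨ (push v l).length + 1 = l.length := by
  match l, hl with
  | [x], _ => left; rfl
  | x :: y :: l, _ =>
    by_cases hy : y = v
    · right; simp [push, hy]
    · left; simp [push, hy]

theorem push_ne_nil (v : V) (l : List V) : push v l ≠ [] := by
  obtain ⟨l', h⟩ := hd_push v l
  rw [h]
  simp

/-- `push` conses or pops -/
theorem push_cases (v : V) (l : List V) : push v l = v :: l ∨ ∃ x, l = x :: push v l := by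
  match l with
  | [] => left; rfl
  | [x] => left; rfl
  | x :: y :: l =>
    by_cases hy : y = v
    · right; exact ⟨x, by simp [push, hy]⟩
    · left; simp [push, hy]

/-- pushing the letters `f 1, .., f m` -/
noncomputable def go (f : ℕ → V) (L : List V) : ℕ → List V
  | 0 => L
  | m + 1 => push (f (m + 1)) (go f L m)

theorem go_congr {f f' : ℕ → V} {L : List V} {m : ℕ} (h : ∀ i, 1 ≤ i → i ≤ m → f i = f' i) :
    go f L m = go f' L m := by
  induction m with
  | zero => rfl
  | succ m ih =>
    simp only [go]
    rw [ih fun i h1 h2 => h i h1 (by omega), h (m + 1) (by omega) le_rfl]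

theorem NB.go {f : ℕ → V} {L : List V} (hL : NB L) (m : ℕ) : NB (go f L m) := by
  induction m with
  | zero => exact hL
  | succ m ih => exact ih.push

theorem go_ne_nil {f : ℕ → V} {L : List V} (hL : L ≠ []) (m : ℕ) : go f L m ≠ [] := by
  cases m with
  | zero => exact hL
  | succ m => exact push_ne_nil _ _

theorem hd_go {f : ℕ → V} {L : List V} (hL : Hd (f 0) L) (m : ℕ) : Hd (f m) (go f L m) := by
  cases m with
  | zero => exact hL
  | succ m => exact hd_push _ _

theorem go_add (f : ℕ → V) (L : List V) (m k : ℕ) :
    go f L (m + k) = go (fun i => f (m + i)) (go f L m) k := by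
  induction k with
  | zero => rfl
  | succ k ih =>
    rw [← Nat.add_assoc]
    simp only [go]
    rw [ih, Nat.add_assoc]

theorem parity_go {f : ℕ → V} {L : List V} (hL : L ≠ []) (m : ℕ) :
    (go f L m).length % 2 = (L.length + m) % 2 := by
  induction m with
  | zero => rfl
  | succ m ih =>
    rcases length_push (f (m + 1)) (go_ne_nil (f := f) hL m) with h | h
    · simp only [go]
      omega
    · simp only [go]
      omega

/-- **The reduced form of a walk.** -/
theorem exists_reduced {G : V → V → Prop} (f : ℕ → V) :
    ∀ m, (∀ i < m, G (f i) (f (i + 1))) → ∃ (M : ℕ) (a : ℕ → V), a 0 = f 0 ∧ a M = f m ∧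
      M % 2 = m % 2 ∧ (∀ i < M, G (a i) (a (i + 1))) ∧ (∀ i, i + 2 ≤ M → a (i + 2) ≠ a i) ∧
      ∀ L : List V, NB L → Hd (f 0) L → go f L m = go a L M := by
  intro m
  induction m with
  | zero =>
    intro _
    exact ⟨0, f, rfl, rfl, rfl, fun i hi => absurd hi (by omega), fun i hi => absurd hi (by omega),
      fun L _ _ => rfl⟩
  | succ m ih =>
    intro hw
    obtain ⟨M, a, h0, hM, hpar, hadj, hred, hact⟩ := ih fun i hi => hw i (by omega)
    by_cases hback : 1 ≤ M ∧ a (M - 1) = f (m + 1)
    · obtain ⟨h1, hb⟩ := hback
      obtain ⟨M', rfl⟩ : ∃ M', M = M' + 1 := ⟨M - 1, by omega⟩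
      simp only [Nat.add_sub_cancel] at hb
      refine ⟨M', a, h0, hb, by omega, fun i hi => hadj i (by omega),
        fun i hi => hred i (by omega), fun L hL hx => ?_⟩
      have h2 := hact L hL hx
      have h3 : go f L (m + 1) = push (f (m + 1)) (go a L (M' + 1)) := by
        simp only [go]
        rw [h2]
        rfl
      rw [h3]
      show push (f (m + 1)) (push (a (M' + 1)) (go a L M')) = go a L M'
      refine push_push (hL.go M') ?_
      rw [← hb]
      refine hd_go ?_ M'
      rw [h0]
      exact hx
    · let a' : ℕ → V := fun i => if i = M + 1 then f (m + 1) else a i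
      have ha' : ∀ i, i ≤ M → a' i = a i := fun i hi => if_neg (by omega)
      have ha'' : a' (M + 1) = f (m + 1) := if_pos rfl
      refine ⟨M + 1, a', ?_, ha'', by omega, ?_, ?_, ?_⟩
      · rw [ha' 0 (by omega)]; exact h0
      · intro i hi
        rcases Nat.lt_succ_iff_lt_or_eq.1 hi with h | h
        · rw [ha' i (by omega), ha' (i + 1) (by omega)]
          exact hadj i h
        · subst h
          rw [ha' i le_rfl, ha'', hM]
          exact hw m (by omega)
      · intro i hi
        rcases Nat.lt_or_ge (i + 2) (M + 1) with h | h
        · rw [ha' (i + 2) (by omega), ha' i (by omega)]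
          exact hred i (by omega)
        · have : i + 2 = M + 1 := by omega
          rw [this, ha'', ha' i (by omega)]
          intro heq
          exact hback ⟨by omega, by rw [show M - 1 = i by omega]; exact heq.symm⟩
      · intro L hL hx
        show push (f (m + 1)) (go f L m) = push (a' (M + 1)) (go a' L M)
        rw [hact L hL hx, ha'']
        congr 1
        exact go_congr fun i _ h2 => (ha' i h2).symm

end Vale.Agent.P032.H667
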