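import Vale.Agent.P032.H667.Push

/-!
# P032: folded closed 6-walks during one turn (helper667)

`w s` is the letter met at the place `s` of the circle, `n` places for one sixth of a turn; the column
at the place `s` is `w s, w (s + n), .., w (s + 5 n)`.  Every change of the column is a fold: the two
neighbours of a changing slot carry the same letter and do not change.
-/

namespace Vale.Agent.P032.H667

variable {V : Type*}

/-- all events of one turn are folds -/
structure Folded (G : V → V → Prop) (n : ℕ) (w : ℕ → V) : Prop where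
  pos : 0 < n
  per : ∀ s, w (s + 6 * n) = w s
  adj : ∀ s, G (w s) (w (s + n))
  fold : ∀ s, w (s + n + 1) ≠ w (s + n) →
    w (s + 2 * n) = w s ∧ w (s + 1) = w s ∧ w (s + 2 * n + 1) = w (s + 2 * n)

variable {G : V → V → Prop} {n : ℕ} {w : ℕ → V}

/-- the track of a slot together with the next slot -/
def U (n : ℕ) (w : ℕ → V) (s i : ℕ) : V := if i % 2 = 0 then w (s + i / 2) else w (s + i / 2 + n)

theorem U_even (s t : ℕ) : U n w s (2 * t) = w (s + t) := by
  rw [U, if_pos (by omega), show 2 * t / 2 = t by omega]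

theorem U_odd (s t : ℕ) : U n w s (2 * t + 1) = w (s + t + n) := by
  rw [U, if_neg (by omega), show (2 * t + 1) / 2 = t by omega]

theorem go_U_step (s t : ℕ) (L : List V) :
    go (U n w s) L (2 * (t + 1)) =
      push (w (s + t + 1)) (push (w (s + t + n)) (go (U n w s) L (2 * t))) := by
  show push (U n w s (2 * (t + 1))) (push (U n w s (2 * t + 1)) (go (U n w s) L (2 * t))) = _
  rw [U_even, U_odd]
  rfl

/-- the column -/
def col (n : ℕ) (w : ℕ → V) (s i : ℕ) : V := w (s + i * n)

theorem hd_col {s : ℕ} {L : List V} (hx : Hd (w s) L) (k : ℕ) :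
    Hd (w (s + k * n)) (go (col n w s) L k) :=
  hd_go (f := col n w s) (by simpa [col] using hx) k

theorem hd_U {s : ℕ} {L : List V} (hx : Hd (w s) L) (t : ℕ) :
    Hd (w (s + t)) (go (U n w s) L (2 * t)) := by
  have := hd_go (f := U n w s) (L := L) (by simpa [U] using hx) (2 * t)
  rwa [U_even] at this

/-- the square of one step commutes -/
theorem Folded.square (h : Folded G n w) (s : ℕ) {L : List V} (hL : NB L) :
    push (w (s + 1 + n)) (push (w (s + 1)) (push (w (s + n)) L)) =
      push (w (s + n + 1)) (push (w (s + n + n)) (push (w (s + n)) L)) := by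
  have e : s + 1 + n = s + n + 1 := by omega
  rw [e]
  by_cases hc : w (s + n + 1) = w (s + n)
  · rw [hc, push_push hL.push (hd_push _ _), push_push hL.push (hd_push _ _)]
  · obtain ⟨h1, h2, -⟩ := h.fold s hc
    rw [h2, show s + n + n = s + 2 * n by omega, h1]

theorem Folded.square_track (h : Folded G n w) (s t : ℕ) {L : List V} (hL : NB L) :
    push (w (s + t + n)) (go (U n w s) L (2 * t)) =
      go (U n w (s + n)) (push (w (s + n)) L) (2 * t) := by
  induction t with
  | zero => rfl
  | succ t ih =>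
    rw [go_U_step, go_U_step, ← ih]
    have := h.square (s + t) (hL.go (f := U n w s) (2 * t))
    rw [show s + (t + 1) + n = s + t + 1 + n by omega, this,
      show s + n + t + 1 = s + t + n + 1 by omega, show s + n + t + n = s + t + n + n by omega]

theorem Folded.square_col (h : Folded G n w) (s t k : ℕ) {L : List V} (hL : NB L) :
    go (col n w (s + t)) (go (U n w s) L (2 * t)) k =
      go (U n w (s + k * n)) (go (col n w s) L k) (2 * t) := by
  induction k with
  | zero => simp [go]
  | succ k ih =>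
    show push (col n w (s + t) (k + 1)) (go (col n w (s + t)) (go (U n w s) L (2 * t)) k) =
      go (U n w (s + (k + 1) * n)) (push (col n w s (k + 1)) (go (col n w s) L k)) (2 * t)
    rw [ih]
    have := h.square_track (s + k * n) t (hL.go (f := col n w s) k)
    have e : s + (k + 1) * n = s + k * n + n := by ring
    have e2 : s + t + (k + 1) * n = s + k * n + t + n := by ring
    rw [col, col, e, e2]
    exact this

/-! ## The column is null-homotopic -/

/-- the column at `s` is null-homotopic -/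
def Null (n : ℕ) (w : ℕ → V) (s : ℕ) : Prop :=
  ∀ L : List V, NB L → Hd (w s) L → go (col n w s) L 6 = L

theorem Folded.per_mul (h : Folded G n w) (s q : ℕ) : w (s + 6 * n * q) = w s := by
  induction q with
  | zero => rfl
  | succ q ih =>
    rw [show s + 6 * n * (q + 1) = s + 6 * n * q + 6 * n by ring, h.per, ih]

theorem Folded.null_succ (h : Folded G n w) {s : ℕ} (hs : Null n w s) : Null n w (s + 1) := by
  intro L' hL' hx'
  set L := push (w s) (push (w (s + n)) L') with hLdef
  have hL : NB L := hL'.push.push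
  have hx : Hd (w s) L := hd_push _ _
  have h1 : go (U n w s) L (2 * 1) = L' := by
    rw [go_U_step s 0]
    show push (w (s + 1)) (push (w (s + n)) (push (w s) (push (w (s + n)) L'))) = L'
    rw [push_push hL'.push (hd_push _ _), push_push hL' hx']
  have h2 := h.square_col s 1 6 hL
  rw [h1, hs L hL hx] at h2
  rw [h2]
  have h3 : go (U n w (s + 6 * n)) L (2 * 1) = go (U n w s) L (2 * 1) := by
    rw [go_U_step _ 0, go_U_step _ 0]
    have e1 : w (s + 6 * n + 0 + n) = w (s + 0 + n) := by
      rw [show s + 6 * n + 0 + n = s + 0 + n + 6 * n by ring, h.per]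
    have e2 : w (s + 6 * n + 0 + 1) = w (s + 0 + 1) := by
      rw [show s + 6 * n + 0 + 1 = s + 0 + 1 + 6 * n by ring, h.per]
    rw [e1, e2]
    rfl
  rw [h3, h1]

theorem Folded.null_zero (h : Folded G n w) {s : ℕ} (hs : Null n w s) : Null n w 0 := by
  have h1 : ∀ t, Null n w (s + t) := by
    intro t
    induction t with
    | zero => exact hs
    | succ t ih => exact h.null_succ ih
  have hn := h.pos
  have h2 : s ≤ 6 * n * s := Nat.le_mul_of_pos_left s (by omega)
  have h3 := h1 (6 * n * s - s)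
  rw [Nat.add_sub_cancel' h2] at h3
  intro L hL hx
  have e : ∀ i, w (6 * n * s + i) = w i := fun i => by
    rw [Nat.add_comm, h.per_mul]
  have h4 := h3 L hL (by rw [show 6 * n * s = 6 * n * s + 0 from rfl, e]; exact hx)
  refine Eq.trans (go_congr (f' := col n w (6 * n * s)) fun i _ _ => ?_) h4
  show w (0 + i * n) = w (6 * n * s + i * n)
  rw [e, Nat.zero_add]

/-- the signed number of passages over the edge `x y` (even slot `x`) -/
noncomputable def chain (n : ℕ) (w : ℕ → V) (s : ℕ) (x y : V) : ℤ := by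
  classical
  exact
  (if w s = x ∧ w (s + 1 * n) = y then 1 else 0) - (if w s = x ∧ w (s + 5 * n) = y then 1 else 0) +
  ((if w (s + 2 * n) = x ∧ w (s + 3 * n) = y then 1 else 0) -
    (if w (s + 2 * n) = x ∧ w (s + 1 * n) = y then 1 else 0)) +
  ((if w (s + 4 * n) = x ∧ w (s + 5 * n) = y then 1 else 0) -
    (if w (s + 4 * n) = x ∧ w (s + 3 * n) = y then 1 else 0))

theorem chain_aux {h0 h1 h2 h3 h4 h5 g0 g1 g2 g3 g4 g5 x y : V}
    (H0 : g0 = h0 ∨ (h5 = h1 ∧ g5 = h5 ∧ g1 = h1)) (H1 : g1 = h1 ∨ (h0 = h2 ∧ g0 = h0 ∧ g2 = h2))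
    (H2 : g2 = h2 ∨ (h1 = h3 ∧ g1 = h1 ∧ g3 = h3)) (H3 : g3 = h3 ∨ (h2 = h4 ∧ g2 = h2 ∧ g4 = h4))
    (H4 : g4 = h4 ∨ (h3 = h5 ∧ g3 = h3 ∧ g5 = h5)) (H5 : g5 = h5 ∨ (h4 = h0 ∧ g4 = h4 ∧ g0 = h0)) :
    open Classical in
    ((if h0 = x ∧ h1 = y then 1 else 0) - (if h0 = x ∧ h5 = y then 1 else 0) +
    ((if h2 = x ∧ h3 = y then 1 else 0) - (if h2 = x ∧ h1 = y then 1 else 0)) +
    ((if h4 = x ∧ h5 = y then 1 else 0) - (if h4 = x ∧ h3 = y then 1 else 0)) : ℤ) =
    (if g0 = x ∧ g1 = y then 1 else 0) - (if g0 = x ∧ g5 = y then 1 else 0) +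
    ((if g2 = x ∧ g3 = y then 1 else 0) - (if g2 = x ∧ g1 = y then 1 else 0)) +
    ((if g4 = x ∧ g5 = y then 1 else 0) - (if g4 = x ∧ g3 = y then 1 else 0)) := by
  rcases H0 with H0 | ⟨a0, b0, c0⟩ <;> rcases H1 with H1 | ⟨a1, b1, c1⟩ <;>
  rcases H2 with H2 | ⟨a2, b2, c2⟩ <;> rcases H3 with H3 | ⟨a3, b3, c3⟩ <;>
  rcases H4 with H4 | ⟨a4, b4, c4⟩ <;> rcases H5 with H5 | ⟨a5, b5, c5⟩ <;> subst_vars <;> ring

theorem Folded.alt (h : Folded G n w) (s k : ℕ) :
    w (s + 1 + (k + 1) * n) = w (s + (k + 1) * n) ∨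
      (w (s + k * n) = w (s + (k + 2) * n) ∧ w (s + 1 + k * n) = w (s + k * n) ∧
        w (s + 1 + (k + 2) * n) = w (s + (k + 2) * n)) := by
  have h1 := h.fold (s + k * n)
  rw [show s + k * n + n + 1 = s + 1 + (k + 1) * n by ring,
    show s + k * n + n = s + (k + 1) * n by ring,
    show s + k * n + 2 * n = s + (k + 2) * n by ring,
    show s + k * n + 1 = s + 1 + k * n by ring,
    show s + (k + 2) * n + 1 = s + 1 + (k + 2) * n by ring] at h1
  by_cases hc : w (s + 1 + (k + 1) * n) = w (s + (k + 1) * n)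
  · exact Or.inl hc
  · obtain ⟨a, b, c⟩ := h1 hc
    exact Or.inr ⟨a.symm, b, c⟩

theorem Folded.chain_succ (h : Folded G n w) (s : ℕ) (x y : V) :
    chain n w (s + 1) x y = chain n w s x y := by
  have H1 := h.alt s 0
  have H2 := h.alt s 1
  have H3 := h.alt s 2
  have H4 := h.alt s 3
  have H5 := h.alt s 4
  have H0 := h.alt s 5
  have e6 : w (s + 6 * n) = w s := h.per s
  have e6' : w (s + 1 + 6 * n) = w (s + 1) := h.per _
  have e7 : w (s + 7 * n) = w (s + 1 * n) := by
    rw [show s + 7 * n = s + 1 * n + 6 * n by ring, h.per]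
  have e7' : w (s + 1 + 7 * n) = w (s + 1 + 1 * n) := by
    rw [show s + 1 + 7 * n = s + 1 + 1 * n + 6 * n by ring, h.per]
  simp only [zero_mul, add_zero, zero_add, Nat.reduceAdd] at H0 H1 H2 H3 H4 H5
  rw [e6, e6', e7, e7'] at H0
  rw [e6, e6'] at H5
  exact (chain_aux H0 H1 H2 H3 H4 H5).symm

theorem Folded.chain_add (h : Folded G n w) (s t : ℕ) (x y : V) :
    chain n w (s + t) x y = chain n w s x y := by
  induction t with
  | zero => rfl
  | succ t ih => rw [← Nat.add_assoc, h.chain_succ, ih]

theorem Folded.chain_turn (h : Folded G n w) (s : ℕ) (x y : V) :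
    chain n w (s + n) x y = - chain n w s y x := by
  have e2 : s + n + 1 * n = s + 2 * n := by ring
  have e3 : s + n + 2 * n = s + 3 * n := by ring
  have e4 : s + n + 3 * n = s + 4 * n := by ring
  have e5 : s + n + 4 * n = s + 5 * n := by ring
  have e6 : w (s + n + 5 * n) = w s := by
    rw [show s + n + 5 * n = s + 6 * n by ring, h.per]
  have e1 : s + 1 * n = s + n := by ring
  have sw : ∀ a b : V, open Classical in
      (if a = x ∧ b = y then (1 : ℤ) else 0) = if b = y ∧ a = x then 1 else 0 := fun a b => by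
    by_cases h1 : a = x <;> by_cases h2 : b = y <;> simp [h1, h2]
  unfold chain
  rw [e2, e3, e4, e5, e6, e1, sw, sw, sw, sw, sw, sw]
  ring

theorem Folded.chain_neg (h : Folded G n w) (s : ℕ) (x y : V) :
    chain n w s x y = - chain n w s y x := by
  rw [← h.chain_turn, h.chain_add]

theorem Folded.exists_null (h : Folded G n w) (irr : ∀ x, ¬ G x x) : ∃ s, Null n w s := by
  have h1 : ∃ s, w (s + 1) ≠ w s := by
    by_contra hcon
    push Not at hcon
    have h2 : ∀ s, w s = w 0 := by
      intro s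
      induction s with
      | zero => rfl
      | succ s ih => rw [hcon, ih]
    have h3 := h.adj 0
    rw [h2 (0 + n)] at h3
    exact irr _ h3
  obtain ⟨s, hs⟩ := h1
  refine ⟨s, ?_⟩
  have hb : w (s + 5 * n) = w (s + 1 * n) := by
    have H0 := h.alt s 5
    have e6 : w (s + 6 * n) = w s := h.per s
    have e6' : w (s + 1 + 6 * n) = w (s + 1) := h.per _
    have e7 : w (s + 7 * n) = w (s + 1 * n) := by
      rw [show s + 7 * n = s + 1 * n + 6 * n by ring, h.per]
    simp only [Nat.reduceAdd] at H0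
    rw [e6, e6', e7] at H0
    rcases H0 with H0 | H0
    · exact absurd H0 hs
    · exact H0.1
  have a01 : w s ≠ w (s + 1 * n) := fun e => irr _ (by
    have := h.adj s
    rw [one_mul] at e
    rwa [← e] at this)
  have a12 : w (s + 1 * n) ≠ w (s + 2 * n) := fun e => irr _ (by
    have := h.adj (s + 1 * n)
    rwa [show s + 1 * n + n = s + 2 * n by ring, ← e] at this)
  have a23 : w (s + 2 * n) ≠ w (s + 3 * n) := fun e => irr _ (by
    have := h.adj (s + 2 * n)
    rwa [show s + 2 * n + n = s + 3 * n by ring, ← e] at this)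
  have a34 : w (s + 3 * n) ≠ w (s + 4 * n) := fun e => irr _ (by
    have := h.adj (s + 3 * n)
    rwa [show s + 3 * n + n = s + 4 * n by ring, ← e] at this)
  have hcase : w (s + 3 * n) = w (s + 1 * n) ∨ w (s + 4 * n) = w (s + 2 * n) := by
    by_contra hcon
    push Not at hcon
    obtain ⟨c1, c2⟩ := hcon
    have h4 := h.chain_neg s (w (s + 2 * n)) (w (s + 3 * n))
    simp only [chain, hb, a12, a23, a23.symm, a34.symm, c1.symm, c2,
      and_true, and_false, if_true, if_false] at h4
    norm_num at h4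
  intro L hL hx
  have p0 : ∀ k, col n w s k = w (s + k * n) := fun k => rfl
  have p6 : col n w s 6 = w s := h.per s
  show push (col n w s 6) (push (col n w s 5) (push (col n w s 4) (push (col n w s 3)
    (push (col n w s 2) (push (col n w s 1) L))))) = L
  rw [p6, p0, p0, p0, p0, p0, hb]
  set P := push (w (s + 1 * n)) L with hP
  have hPN : NB P := hL.push
  have hPx : Hd (w (s + 1 * n)) P := hd_push _ _
  rcases hcase with e | e
  · rw [e, push_push hPN hPx, push_push hPN hPx, hP, push_push hL hx]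
  · rw [e, push_push hPN.push (hd_push _ _), push_push hPN hPx, hP, push_push hL hx]

theorem Folded.null (h : Folded G n w) (irr : ∀ x, ¬ G x x) : Null n w 0 := by
  obtain ⟨s, hs⟩ := h.exists_null irr
  exact h.null_zero hs

end Vale.Agent.P032.H667
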